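import Vale.Agent.Lib.P154P.NegHalf
import Vale.Agent.Lib.P154B.Sig

/-!
Galton-Watson levels as functionals, for the computer-checked domination tables.
-/

noncomputable section

open Finset Filter Topology

namespace Vale.Agent.Lib.P154P

open Vale.Agent.Lib.P154 Vale.Agent.Lib.P154B

theorem pre_of_test {ψ : Vec → ℝ} (h : IsTest ψ) : IsPre ψ where
  hom := fun c v hc hv => h.hom c v hc hv
  sub := fun v w hv hw => h.sub v w hv hw
  vert := fun i => by
    fin_cases i
    · have e : (Pi.single (0 : Fin 3) 1 : Vc) = ![1, 0, 0] := by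
        funext j; fin_cases j <;> simp
      change ψ (Pi.single (0 : Fin 3) 1 : Vc) = 0
      rw [e]; exact h.vert
    · have e : (Pi.single (1 : Fin 3) 1 : Vc) = ![0, 1, 0] := by
        funext j; fin_cases j <;> simp
      change ψ (Pi.single (1 : Fin 3) 1 : Vc) = 0
      rw [e]; exact h.e1
    · have e : (Pi.single (2 : Fin 3) 1 : Vc) = ![0, 0, 1] := by
        funext j; fin_cases j <;> simp
      change ψ (Pi.single (2 : Fin 3) 1 : Vc) = 0
      rw [e]; exact h.e2

theorem ssig_of_ws {ι : Type*} [Fintype ι] {l : ι → Vc} (h : WS l) : SSig l where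
  nonneg := fun t i => h.nonneg t i
  tot := h.tot
  sym := fun σ => by
    obtain ⟨π, hπ⟩ := h.sym σ
    exact ⟨π, fun t i => by rw [hπ]; rfl⟩

/-- The functional of level `n` of a Galton-Watson tree. -/
def gwFun (p : ℕ → ℝ) (lam : ℝ) (n : ℕ) : (Vec → ℝ) → ℝ :=
  fun g => Ew (gwWeight p n) (fun T => sigFun (glev lam n T) g)

section
variable {p : ℕ → ℝ} {μ : ℝ}

theorem bdd_sigFun (hp : WProb p) (h0 : 0 ≤ μ) (h1 : μ ≤ 1 / 2) (n : ℕ) {g : Vec → ℝ} (hg : Adm g) :
    BddF (fun T : GWTree n => sigFun (glev (-μ) n T) g) := by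
  obtain ⟨M, hM, hb⟩ := hg
  refine ⟨M * 3, fun T => ?_⟩
  have hs := ssig_of_ws (glev_ws (lam := -μ) (by linarith) (by linarith) n T)
  have := (isFun_sigFun hs).abs_le ⟨M, hM, hb⟩ hb
  rwa [sigFun_lin hs] at this

theorem isFun_gwFun (hp : WProb p) (h0 : 0 ≤ μ) (h1 : μ ≤ 1 / 2) (n : ℕ) : IsFun (gwFun p (-μ) n) where
  add := fun g h hg hh => by
    unfold gwFun
    rw [← Ew_add (gwWeight_wprob hp n) (bdd_sigFun hp h0 h1 n hg) (bdd_sigFun hp h0 h1 n hh)]
    refine Ew_congr _ _ fun T => ?_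
    exact (isFun_sigFun (ssig_of_ws (glev_ws (lam := -μ) (by linarith) (by linarith) n T))).add g h hg hh
  smul := fun c g hg => by
    unfold gwFun
    rw [← Ew_const_mul]
    refine Ew_congr _ _ fun T => ?_
    exact (isFun_sigFun (ssig_of_ws (glev_ws (lam := -μ) (by linarith) (by linarith) n T))).smul c g hg
  mono := fun g h hg hh hgh => by
    unfold gwFun
    refine Ew_mono (gwWeight_wprob hp n) (bdd_sigFun hp h0 h1 n hg) (bdd_sigFun hp h0 h1 n hh) fun T => ?_
    exact (isFun_sigFun (ssig_of_ws (glev_ws (lam := -μ) (by linarith) (by linarith) n T))).mono g h hg hh hgh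
  sym := fun σ g hg => by
    unfold gwFun
    refine Ew_congr _ _ fun T => ?_
    exact (isFun_sigFun (ssig_of_ws (glev_ws (lam := -μ) (by linarith) (by linarith) n T))).sym σ g hg

theorem gwFun_lin (hp : WProb p) (h0 : 0 ≤ μ) (h1 : μ ≤ 1 / 2) (n : ℕ) : gwFun p (-μ) n Lin = 3 := by
  unfold gwFun
  have : ∀ T : GWTree n, sigFun (glev (-μ) n T) Lin = 3 := fun T =>
    sigFun_lin (ssig_of_ws (glev_ws (lam := -μ) (by linarith) (by linarith) n T))
  rw [Ew_congr _ (fun _ => (3 : ℝ)) this, Ew_const (gwWeight_wprob hp n)]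

theorem gwFun_eq_GG (lam : ℝ) (n : ℕ) (g : Vec → ℝ) : gwFun p lam n g = GG p lam n g := rfl

/-- At level zero a test has mean zero. -/
theorem gwFun_zero (hp : WProb p) {ψ : Vec → ℝ} (hψ : IsTest ψ) (lam : ℝ) : gwFun p lam 0 ψ = 0 :=
  GG_zero hp (pre_of_test hψ)

/-- Levels are monotone in the level. -/
theorem gwFun_level (hp : WProb p) (h0 : 0 ≤ μ) (h1 : μ ≤ 1 / 2) (n : ℕ) :
    BOrd (gwFun p (-μ) (n + 1)) (gwFun p (-μ) n) := fun ψ hψ =>
  GG_succ_le hp (by linarith) (by linarith) n ψ (pre_of_test hψ)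

theorem gwFun_level_le (hp : WProb p) (h0 : 0 ≤ μ) (h1 : μ ≤ 1 / 2) {n m : ℕ} (hnm : n ≤ m) :
    BOrd (gwFun p (-μ) m) (gwFun p (-μ) n) := by
  induction m, hnm using Nat.le_induction with
  | base => exact BOrd.refl _
  | succ m _ ih => exact (gwFun_level hp h0 h1 m).trans ih

/-- Levels are monotone in the offspring law and in the eigenvalue. -/
theorem gwFun_box {p' : ℕ → ℝ} {μ' : ℝ} (hp : WProb p) (hp' : WProb p') (hst : StochLE p p') (h0 : 0 ≤ μ) (hμ : μ ≤ μ')
    (h0' : 0 < μ') (h1 : μ' ≤ 1 / 2) (n : ℕ) : BOrd (gwFun p (-μ) n) (gwFun p' (-μ') n) := fun ψ hψ =>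
  GG_box hp hp' hst h0 hμ h0' h1 n ψ (pre_of_test hψ)

/-- The child functional in terms of the level. -/
theorem MF_cF (n : ℕ) (g : Vec → ℝ) : MF (gwWeight p n) (cF (-μ) n) g = chanF μ (gwFun p (-μ) n) g := by
  unfold MF cF chanF gwFun sigFun
  refine Ew_congr _ _ fun T => ?_
  refine Finset.sum_congr rfl fun t _ => ?_
  rw [chan_eq_L]

theorem isFun_child (hp : WProb p) (h0 : 0 ≤ μ) (h1 : μ ≤ 1 / 2) (n : ℕ) : IsFun (chanF μ (gwFun p (-μ) n)) :=
  (isFun_gwFun hp h0 h1 n).chanF h0 h1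

end

/-! ### Powers and Horner evaluation of functionals -/

/-- Powers of a functional. -/
def powF (B : (Vec → ℝ) → ℝ) : ℕ → (Vec → ℝ) → ℝ
  | 0 => unitF 1
  | k + 1 => tens (powF B k) B

/-- The Horner evaluation of a polynomial in a functional: the coefficients `q 0, q 1, ...` come from the top. -/
def hornF (B : (Vec → ℝ) → ℝ) (q : ℕ → ℝ) : ℕ → (Vec → ℝ) → ℝ
  | 0 => fun _ => 0
  | j + 1 => fun ψ => unitF (q j) ψ + tens (hornF B q j) B ψ

theorem isFun_hornF {B : (Vec → ℝ) → ℝ} (hB : IsFun B) {q : ℕ → ℝ} (hq : ∀ j, 0 ≤ q j) : ∀ j, IsFun (hornF B q j)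
  | 0 => isFun_zero
  | j + 1 => (isFun_unitF (hq j)).addF ((isFun_hornF hB hq j).tens hB)

theorem hornF_eq {B : (Vec → ℝ) → ℝ} (hB : IsFun B) (q : ℕ → ℝ) (K : ℕ) :
    ∀ ψ, IsTest ψ → hornF B q K ψ = ∑ j ∈ Finset.range K, q j * powF B (K - 1 - j) ψ := by
  induction K with
  | zero => intro ψ _; simp [hornF]
  | succ K ih =>
    intro ψ hψ
    change unitF (q K) ψ + hornF B q K (fun x => B fun y => ψ (x * y)) = _
    rw [ih _ (outer_isTest hB hψ), Finset.sum_range_succ]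
    have e : ∀ j ∈ Finset.range K, q j * powF B (K - 1 - j) (fun x => B fun y => ψ (x * y))
        = q j * powF B (K + 1 - 1 - j) ψ := by
      intro j hj
      have hj' : j < K := Finset.mem_range.1 hj
      have e2 : K + 1 - 1 - j = (K - 1 - j) + 1 := by omega
      rw [e2]
      rfl
    rw [Finset.sum_congr rfl e]
    have e3 : K + 1 - 1 - K = 0 := by omega
    rw [e3]
    unfold unitF
    simp only [powF, unitF]
    ring

section step
variable {p : ℕ → ℝ} {μ : ℝ}

theorem one_eq : (1 : Vc) = ![1, 1, 1] := by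
  funext i
  fin_cases i <;> simp

/-- A power of the child mixture as a power of the child functional. -/
theorem Pw_eq_powF (hp : WProb p) (h0 : 0 ≤ μ) (h1 : μ ≤ 1 / 2) (n k : ℕ) :
    ∀ ψ, IsTest ψ → Pw (gwWeight p n) (cF (-μ) n) k ψ = powF (chanF μ (gwFun p (-μ) n)) k ψ := by
  have hw := gwWeight_wprob hp n
  have hc := cF_ws (lam := -μ) (by linarith) (by linarith) n
  induction k with
  | zero =>
    intro ψ _
    rw [Pw_zero hw hc]
    simp only [powF, unitF, one_mul, one_eq]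
  | succ k ih =>
    intro ψ hψ
    rw [Pw_succ hw hc (pre_of_test hψ)]
    have e : (fun y => MF (gwWeight p n) (cF (-μ) n) fun v => ψ (y * v))
        = fun y => chanF μ (gwFun p (-μ) n) fun v => ψ (y * v) := by
      funext y
      exact MF_cF n _
    rw [e, ih _ (outer_isTest (isFun_child hp h0 h1 n) hψ)]
    rfl

/-- One level of a Galton-Watson tree as a truncated polynomial in the child functional. -/
theorem gwFun_succ_le (hp : WProb p) (h0 : 0 ≤ μ) (h1 : μ ≤ 1 / 2) (n : ℕ) (q : ℕ → ℝ) (K : ℕ)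
    (hq : ∀ k, q k ≤ p k) {ψ : Vec → ℝ} (hψ : IsTest ψ) :
    gwFun p (-μ) (n + 1) ψ ≤ ∑ k ∈ Finset.range K, q k * powF (chanF μ (gwFun p (-μ) n)) k ψ := by
  have hl0 : -(1 / 2) ≤ -μ := by linarith
  have hl1 : -μ ≤ 1 := by linarith
  have hw := gwWeight_wprob hp n
  have hcF := cF_ws (lam := -μ) hl0 hl1 n
  have hφ := pre_of_test hψ
  change GG p (-μ) (n + 1) ψ ≤ _
  rw [GG_succ hp hl0 hl1 hφ]
  have hs : Summable (fun k => p k * Pw (gwWeight p n) (cF (-μ) n) k ψ) :=
    hp.summable_mul (BddF.of_Icc (a := ψ 1) (b := 0) fun k => ⟨Pw_lower hw hcF hφ k, Pw_nonpos hw hcF hφ k⟩)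
  have h2 : ∑' k, p k * Pw (gwWeight p n) (cF (-μ) n) k ψ
      ≤ ∑ k ∈ Finset.range K, p k * Pw (gwWeight p n) (cF (-μ) n) k ψ := by
    have := (hs.neg).sum_le_tsum (Finset.range K) (fun k _ => by
      have := mul_nonpos_of_nonneg_of_nonpos (hp.nonneg k) (Pw_nonpos hw hcF hφ k)
      simpa using this)
    rw [tsum_neg, Finset.sum_neg_distrib] at this
    linarith
  refine h2.trans (Finset.sum_le_sum fun k _ => ?_)
  rw [← Pw_eq_powF hp h0 h1 n k ψ hψ]
  exact mul_le_mul_of_nonpos_right (hq k) (Pw_nonpos hw hcF hφ k)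

/-- One level of a Galton-Watson tree in Horner form, coefficients from the top. -/
theorem gwFun_succ_horn (hp : WProb p) (h0 : 0 ≤ μ) (h1 : μ ≤ 1 / 2) (n : ℕ) (q : ℕ → ℝ) (K : ℕ)
    (hq : ∀ j, j < K → q j ≤ p (K - 1 - j)) :
    BOrd (gwFun p (-μ) (n + 1)) (hornF (chanF μ (gwFun p (-μ) n)) q K) := by
  intro ψ hψ
  rw [hornF_eq (isFun_child hp h0 h1 n) q K ψ hψ]
  have h2 := gwFun_succ_le hp h0 h1 n (fun k => if k < K then q (K - 1 - k) else p k) K (fun k => by
    by_cases hk : k < K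
    · simp only [hk, if_true]
      have := hq (K - 1 - k) (by omega)
      have e : K - 1 - (K - 1 - k) = k := by omega
      rwa [e] at this
    · simp [hk]) hψ
  refine h2.trans (le_of_eq ?_)
  rw [← Finset.sum_range_reflect]
  refine Finset.sum_congr rfl fun j hj => ?_
  have hj' : j < K := Finset.mem_range.1 hj
  have hlt : K - 1 - j < K := by omega
  simp only [hlt, if_true]
  have e : K - 1 - (K - 1 - j) = j := by omega
  rw [e]

end step

/-! ### Chi-square bound from a domination -/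

theorem ψF_isTest : IsTest ψF where
  sub := fun x y hx hy => ψF_pre.sub x y hx hy
  hom := fun c x hc hx => ψF_pre.hom c x hc hx
  perm := fun σ x _ => by
    unfold ψF F3
    have h1 : ((x ∘ σ) 0) + ((x ∘ σ) 1) + ((x ∘ σ) 2) = x 0 + x 1 + x 2 := by
      have := Equiv.sum_comp σ (fun j => x j)
      simp only [Fin.sum_univ_three] at this
      exact this
    have h2 : ((x ∘ σ) 0) ^ 2 + ((x ∘ σ) 1) ^ 2 + ((x ∘ σ) 2) ^ 2 = x 0 ^ 2 + x 1 ^ 2 + x 2 ^ 2 := by
      have := Equiv.sum_comp σ (fun j => x j ^ 2)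
      simp only [Fin.sum_univ_three] at this
      exact this
    rw [h1, h2]
  vert := ψF_pre.vert 0 |> fun e => by
    have e' : (Pi.single (0 : Fin 3) 1 : Vc) = ![1, 0, 0] := by
      funext j; fin_cases j <;> simp
    rwa [e'] at e

theorem Xbar_eq_fun {p : ℕ → ℝ} {μ : ℝ} (hp : WProb p) (h0 : 0 ≤ μ) (h1 : μ ≤ 1 / 2) (n : ℕ) :
    Xbar p (-μ) n = (1 / 3) * gwFun p (-μ) n ψF + 2 / 3 :=
  Xbar_eq hp (by linarith) (by linarith) n

end Vale.Agent.Lib.P154P
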