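import Vale.Agent.Lib.P154P.Level

/-!
Comparison of Galton-Watson levels in the Blackwell order: in the level, in the eigenvalue and in the offspring law.
-/

noncomputable section

open Finset Finset.HasAntidiagonal

namespace Vale.Agent.Lib.P154P

open Vale.Agent.Lib.P154

/-- Stochastic order on offspring laws. -/
def StochLE (p p' : ℕ → ℝ) : Prop :=
  ∀ f : ℕ → ℝ, (∀ k, f k ≤ f (k + 1)) → (∃ C : ℝ, ∀ k, |f k| ≤ C) → ∑' k, p k * f k ≤ ∑' k, p' k * f k

theorem StochLE.refl (p : ℕ → ℝ) : StochLE p p := fun _ _ _ => le_rfl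

theorem mono_of_succ {f : ℕ → ℝ} (h : ∀ k, f k ≤ f (k + 1)) {a b : ℕ} (hab : a ≤ b) : f a ≤ f b :=
  monotone_nat_of_le_succ h hab

/-- The convolution of two Poisson laws. -/
theorem poisson_conv (d e : ℝ) (n : ℕ) :
    ∑ x ∈ antidiagonal n, poissonLaw d x.1 * poissonLaw e x.2 = poissonLaw (d + e) n := by
  unfold poissonLaw
  have h1 : (d + e) ^ n = ∑ x ∈ antidiagonal n, (n.choose x.1 : ℝ) * (d ^ x.1 * e ^ x.2) := by
    rw [(Commute.all d e).add_pow']
    refine Finset.sum_congr rfl fun x _ => ?_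
    simp [nsmul_eq_mul]
  rw [h1, mul_comm (Real.exp _), neg_add, Real.exp_add]
  rw [Finset.sum_mul, Finset.sum_div]
  refine Finset.sum_congr rfl fun x hx => ?_
  have hx' : x.1 + x.2 = n := Finset.HasAntidiagonal.mem_antidiagonal.1 hx
  have h2 : (n.choose x.1 : ℝ) = (n.factorial : ℝ) / ((x.1.factorial : ℝ) * (x.2.factorial : ℝ)) := by
    have h3 := Nat.add_choose_mul_factorial_mul_factorial x.1 x.2
    rw [hx', ← Nat.choose_symm_of_eq_add hx'.symm] at h3
    have h4 : (n.choose x.1 : ℝ) * (x.1.factorial : ℝ) * (x.2.factorial : ℝ) = (n.factorial : ℝ) := by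
      exact_mod_cast h3
    have h5 : (x.1.factorial : ℝ) ≠ 0 := by positivity
    have h6 : (x.2.factorial : ℝ) ≠ 0 := by positivity
    field_simp
    linarith
  rw [h2]
  have h5 : (x.1.factorial : ℝ) ≠ 0 := by positivity
  have h6 : (x.2.factorial : ℝ) ≠ 0 := by positivity
  have h7 : (n.factorial : ℝ) ≠ 0 := by positivity
  field_simp

/-- Poisson laws are stochastically ordered by their mean. -/
theorem poisson_stoch {d d' : ℝ} (hd : 0 ≤ d) (hdd : d ≤ d') : StochLE (poissonLaw d) (poissonLaw d') := by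
  intro f hf hC
  obtain ⟨e, rfl⟩ : ∃ e, d' = d + e := ⟨d' - d, by ring⟩
  have he : 0 ≤ e := by linarith
  have ha := poisson_wprob hd
  have hb := poisson_wprob he
  have hu := ha.prod hb
  have hbF : BddF f := hC
  have hbG : BddF (fun q : ℕ × ℕ => f (q.1 + q.2)) := by
    obtain ⟨C, hC'⟩ := hC
    exact ⟨C, fun q => hC' _⟩
  have hbH : BddF (fun q : ℕ × ℕ => f q.1) := by
    obtain ⟨C, hC'⟩ := hC
    exact ⟨C, fun q => hC' _⟩
  have h1 : Ew (fun q : ℕ × ℕ => poissonLaw d q.1 * poissonLaw e q.2) (fun q => f q.1) = Ew (poissonLaw d) f :=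
    Ew_prod_fst ha hb hbF
  have h2 : Ew (fun q : ℕ × ℕ => poissonLaw d q.1 * poissonLaw e q.2) (fun q => f q.1)
      ≤ Ew (fun q : ℕ × ℕ => poissonLaw d q.1 * poissonLaw e q.2) (fun q => f (q.1 + q.2)) :=
    Ew_mono hu hbH hbG fun q => mono_of_succ hf (Nat.le_add_right _ _)
  have h3 : Ew (fun q : ℕ × ℕ => poissonLaw d q.1 * poissonLaw e q.2) (fun q => f (q.1 + q.2))
      = Ew (poissonLaw (d + e)) f := by
    unfold Ew
    have hs := hu.summable_mul hbG
    rw [← (Finset.HasAntidiagonal.sigmaAntidiagonalEquivProd (A := ℕ)).tsum_eq]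
    have hs2 := (Finset.HasAntidiagonal.sigmaAntidiagonalEquivProd (A := ℕ)).summable_iff.2 hs
    have hs2' : Summable (fun c : (Σ n : ℕ, antidiagonal n) =>
        (fun q : ℕ × ℕ => poissonLaw d q.1 * poissonLaw e q.2) (Finset.HasAntidiagonal.sigmaAntidiagonalEquivProd c)
          * (fun q : ℕ × ℕ => f (q.1 + q.2)) (Finset.HasAntidiagonal.sigmaAntidiagonalEquivProd c)) := hs2
    rw [hs2'.tsum_sigma' (fun n => (hasSum_fintype _).summable)]
    congr 1
    funext n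
    rw [tsum_fintype]
    have e1 := poisson_conv d e n
    rw [← e1, Finset.sum_mul]
    rw [← Finset.sum_coe_sort (antidiagonal n)]
    refine Finset.sum_congr rfl fun x _ => ?_
    have hx : x.1.1 + x.1.2 = n := Finset.HasAntidiagonal.mem_antidiagonal.1 x.2
    simp only [Finset.HasAntidiagonal.sigmaAntidiagonalEquivProd_apply]
    rw [hx]
  unfold Ew at h1 h2 h3
  rw [← h1, ← h3]
  exact h2

variable {p p' : ℕ → ℝ} {lam : ℝ} {φ : Vc → ℝ}

/-- The levels of a tree get less informative. -/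
theorem GG_succ_le (hp : WProb p) (h0 : -(1 / 2) ≤ lam) (h1 : lam ≤ 1) (n : ℕ) :
    ∀ φ, IsPre φ → GG p lam (n + 1) φ ≤ GG p lam n φ := by
  induction n with
  | zero =>
    intro φ hφ
    rw [GG_zero hp hφ]
    exact GG_nonpos hp h0 h1 hφ 1
  | succ n ih =>
    intro φ hφ
    rw [GG_succ hp h0 h1 hφ (n + 1), GG_succ hp h0 h1 hφ n]
    have hw := gwWeight_wprob hp n
    have hw' := gwWeight_wprob hp (n + 1)
    have hC : ∀ ψ, IsPre ψ → MF (gwWeight p (n + 1)) (cF lam (n + 1)) ψ ≤ MF (gwWeight p n) (cF lam n) ψ := by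
      intro ψ hψ
      have e1 := GC_eq hp h0 h1 hψ (n + 1)
      have e2 := GC_eq hp h0 h1 hψ n
      unfold GC at e1 e2
      rw [e1, e2]
      have := ih _ (nrmφ_pre hψ h0 h1)
      linarith
    have hcF := cF_ws h0 h1 (n + 1)
    have hcF' := cF_ws h0 h1 n
    have hle := fun k => Pw_le_Pw hw' hcF hw hcF' hC k φ hφ
    refine (hp.summable_mul ?_).tsum_le_tsum (fun k => mul_le_mul_of_nonneg_left (hle k) (hp.nonneg k))
      (hp.summable_mul ?_)
    · exact BddF.of_Icc (a := φ 1) (b := 0) fun k =>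
        ⟨Pw_lower hw' hcF hφ k, Pw_nonpos hw' hcF hφ k⟩
    · exact BddF.of_Icc (a := φ 1) (b := 0) fun k =>
        ⟨Pw_lower hw hcF' hφ k, Pw_nonpos hw hcF' hφ k⟩

/-- Monotonicity in the offspring law and in the eigenvalue. -/
theorem GG_box {μ μ' : ℝ} (hp : WProb p) (hp' : WProb p') (hst : StochLE p p') (hμ0 : 0 ≤ μ) (hμ : μ ≤ μ')
    (hμ'0 : 0 < μ') (hμ1 : μ' ≤ 1 / 2) (n : ℕ) :
    ∀ φ, IsPre φ → GG p (-μ) n φ ≤ GG p' (-μ') n φ := by
  have h0 : -(1 / 2) ≤ -μ := by linarith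
  have h1 : -μ ≤ 1 := by linarith
  have h0' : -(1 / 2) ≤ -μ' := by linarith
  have h1' : -μ' ≤ 1 := by linarith
  induction n with
  | zero =>
    intro φ hφ
    rw [GG_zero hp hφ, GG_zero hp' hφ]
  | succ n ih =>
    intro φ hφ
    have hw := gwWeight_wprob hp n
    have hw' := gwWeight_wprob hp' n
    have hcF := cF_ws (lam := -μ) h0 h1 n
    have hcF' := cF_ws (lam := -μ') h0' h1' n
    rw [GG_succ hp h0 h1 hφ n, GG_succ hp' h0' h1' hφ n]
    have hC : ∀ ψ, IsPre ψ → MF (gwWeight p n) (cF (-μ) n) ψ ≤ MF (gwWeight p' n) (cF (-μ') n) ψ := by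
      intro ψ hψ
      -- degrade the channel
      have hα0 : 0 ≤ μ / μ' := by positivity
      have hα1 : μ / μ' ≤ 1 := by rw [div_le_one hμ'0]; exact hμ
      have s1 : ∀ T : GWTree n, ∑ t, ψ (cF (-μ) n T t) ≤ ∑ t, ψ (chan (-μ') (glev (-μ) n T) t) := by
        intro T
        have hy : WS (chan (-μ') (glev (-μ) n T)) := (glev_ws h0 h1 n T).chan h0' h1'
        have := sum_chV_le hy hψ hα0 hα1
        refine le_trans (le_of_eq ?_) this
        refine Finset.sum_congr rfl fun t _ => ?_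
        congr 1
        change chV (-μ) _ = chV (μ / μ') (chV (-μ') _)
        rw [chV_chV]
        congr 1
        field_simp
      have hB : BddF (fun T : GWTree n => ∑ t, ψ (chan (-μ') (glev (-μ) n T) t)) :=
        bdd_sum (l := fun T => chan (-μ') (glev (-μ) n T)) (fun T => (glev_ws h0 h1 n T).chan h0' h1') hψ
      have s2 := Ew_mono hw (bdd_sum hcF hψ) hB s1
      -- sum over the channel
      have e1 : Ew (gwWeight p n) (fun T => ∑ t, ψ (chan (-μ') (glev (-μ) n T) t))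
          = GG p (-μ) n (nrmφ ψ (-μ')) + ∑ i, ψ (chV (-μ') (Pi.single i 1)) := by
        unfold GG MF
        have e : ∀ T : GWTree n, ∑ t, ψ (chan (-μ') (glev (-μ) n T) t)
            = ∑ t, nrmφ ψ (-μ') (glev (-μ) n T t) + ∑ i, ψ (chV (-μ') (Pi.single i 1)) :=
          fun T => sum_chV (glev_ws h0 h1 n T) ψ (-μ')
        rw [Ew_congr _ _ e, Ew_add hw (bdd_sum (glev_ws h0 h1 n) (nrmφ_pre hψ h0' h1'))
          (BddF.of_Icc (a := ∑ i, ψ (chV (-μ') (Pi.single i 1))) (b := ∑ i, ψ (chV (-μ') (Pi.single i 1)))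
            fun _ => ⟨le_rfl, le_rfl⟩), Ew_const hw]
      have e2 := GC_eq hp' h0' h1' hψ n
      unfold GC at e2
      rw [e2]
      have s3 := ih _ (nrmφ_pre hψ h0' h1')
      unfold MF at *
      linarith
    have hle := fun k => Pw_le_Pw hw hcF hw' hcF' hC k φ hφ
    have hb' : ∃ C : ℝ, ∀ k, |Pw (gwWeight p' n) (cF (-μ') n) k φ| ≤ C :=
      BddF.of_Icc (a := φ 1) (b := 0) fun k => ⟨Pw_lower hw' hcF' hφ k, Pw_nonpos hw' hcF' hφ k⟩
    refine le_trans ?_ (hst _ (fun k => Pw_le_succ hw' hcF' hφ k) hb')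
    refine (hp.summable_mul ?_).tsum_le_tsum (fun k => mul_le_mul_of_nonneg_left (hle k) (hp.nonneg k))
      (hp.summable_mul hb')
    exact BddF.of_Icc (a := φ 1) (b := 0) fun k => ⟨Pw_lower hw hcF hφ k, Pw_nonpos hw hcF hφ k⟩

/-- The channel step for finite atoms. -/
theorem GC_le_of_atoms {A : Type*} [Fintype A] {W : A → ℝ} {V : A → Vc} (hp : WProb p)
    (h0 : -(1 / 2) ≤ lam) (h1 : lam ≤ 1) {n : ℕ} (hW : ∀ a, 0 ≤ W a)
    (h : ∀ ψ, IsPre ψ → GG p lam n ψ ≤ ∑ a, W a * ψ (V a)) (hφ : IsPre φ) :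
    GC p lam n φ ≤ ∑ a, W a * φ (chV lam (V a))
      + ∑ i, (1 - ∑ a, W a * V a i) * φ (chV lam (Pi.single i 1)) := by
  rw [GC_eq hp h0 h1 hφ]
  have := h _ (nrmφ_pre hφ h0 h1)
  refine (add_le_add_left this _).trans (le_of_eq ?_)
  unfold nrmφ
  simp only [mul_sub, Finset.sum_sub_distrib, sub_mul, one_mul, Finset.mul_sum, Finset.sum_mul]
  have e : ∑ a, ∑ i, W a * (V a i * φ (chV lam (Pi.single i 1)))
      = ∑ i, ∑ a, W a * V a i * φ (chV lam (Pi.single i 1)) := by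
    rw [Finset.sum_comm]
    refine Finset.sum_congr rfl fun i _ => Finset.sum_congr rfl fun a _ => ?_
    ring
  rw [e]
  ring

/-- The product step for finite atoms, with a truncated offspring law. -/
theorem GG_succ_le_atoms {A : Type*} [Fintype A] {W : A → ℝ} {V : A → Vc} (hp : WProb p)
    (h0 : -(1 / 2) ≤ lam) (h1 : lam ≤ 1) {n : ℕ} (hW : ∀ a, 0 ≤ W a) (hV : ∀ a, NN (V a))
    (h : ∀ ψ, IsPre ψ → GC p lam n ψ ≤ ∑ a, W a * ψ (V a))
    (q : ℕ → ℝ) (K : ℕ) (hq0 : ∀ k, 0 ≤ q k) (hq : ∀ k, q k ≤ p k) (hφ : IsPre φ) :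
    GG p lam (n + 1) φ ≤ ∑ k ∈ Finset.range K, q k * powP W V k φ := by
  rw [GG_succ hp h0 h1 hφ]
  have hw := gwWeight_wprob hp n
  have hcF := cF_ws (lam := lam) h0 h1 n
  have hs : Summable (fun k => p k * Pw (gwWeight p n) (cF lam n) k φ) :=
    hp.summable_mul (BddF.of_Icc (a := φ 1) (b := 0) fun k => ⟨Pw_lower hw hcF hφ k, Pw_nonpos hw hcF hφ k⟩)
  have h2 : ∑' k, p k * Pw (gwWeight p n) (cF lam n) k φ ≤ ∑ k ∈ Finset.range K, p k * Pw (gwWeight p n) (cF lam n) k φ := by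
    have := (hs.neg).sum_le_tsum (Finset.range K) (fun k _ => by
      have := mul_nonpos_of_nonneg_of_nonpos (hp.nonneg k) (Pw_nonpos hw hcF hφ k)
      simpa using this)
    rw [tsum_neg, Finset.sum_neg_distrib] at this
    linarith
  refine h2.trans (Finset.sum_le_sum fun k _ => ?_)
  have h3 := Pw_le_powP hw hcF hW hV h k φ hφ
  have h4 := powP_nonpos hW hV k φ hφ
  have h5 := hp.nonneg k
  calc p k * Pw (gwWeight p n) (cF lam n) k φ ≤ p k * powP W V k φ := mul_le_mul_of_nonneg_left h3 h5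
    _ ≤ q k * powP W V k φ := mul_le_mul_of_nonpos_right (hq k) h4

/-! ### The chi-square functional as a test function -/

/-- The chi-square test. -/
def ψF (v : Vc) : ℝ := F3 (v 0) (v 1) (v 2) - (v 0 + v 1 + v 2)

theorem F3_sub_add {a b c x y z : ℝ} (ha : 0 ≤ a) (hb : 0 ≤ b) (hc : 0 ≤ c) (hx : 0 ≤ x) (hy : 0 ≤ y) (hz : 0 ≤ z) :
    F3 (a + x) (b + y) (c + z) ≤ F3 a b c + F3 x y z := by
  unfold F3
  set N := a + b + c with hN
  set M := x + y + z with hM
  have hN0 : 0 ≤ N := by positivity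
  have hM0 : 0 ≤ M := by positivity
  rcases hN0.eq_or_lt with h | hNp
  · have h1 : a = 0 := by linarith
    have h2 : b = 0 := by linarith
    have h3 : c = 0 := by linarith
    subst h1 h2 h3
    simp [hM]
  rcases hM0.eq_or_lt with h | hMp
  · have h1 : x = 0 := by linarith
    have h2 : y = 0 := by linarith
    have h3 : z = 0 := by linarith
    subst h1 h2 h3
    simp [hN]
  have e : a + x + (b + y) + (c + z) = N + M := by rw [hN, hM]; ring
  rw [e, div_add_div _ _ hNp.ne' hMp.ne', div_le_div_iff₀ (by positivity) (by positivity)]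
  have key : (a ^ 2 + b ^ 2 + c ^ 2) * M * M + (x ^ 2 + y ^ 2 + z ^ 2) * N * N + 0 ≤
      ((a ^ 2 + b ^ 2 + c ^ 2) * M * M + (x ^ 2 + y ^ 2 + z ^ 2) * N * N)
        + ((a * M - x * N) ^ 2 + (b * M - y * N) ^ 2 + (c * M - z * N) ^ 2 - ((a * M - x * N) ^ 2 + (b * M - y * N) ^ 2 + (c * M - z * N) ^ 2)) := by
    simp
  nlinarith [sq_nonneg (a * M - x * N), sq_nonneg (b * M - y * N), sq_nonneg (c * M - z * N)]

theorem ψF_pre : IsPre ψF where
  hom := fun c v hc hv => by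
    unfold ψF F3
    simp only [Pi.smul_apply, smul_eq_mul]
    rcases hc.eq_or_lt with h | hc'
    · subst h; simp
    have hN : 0 ≤ v 0 + v 1 + v 2 := add_nonneg (add_nonneg (hv 0) (hv 1)) (hv 2)
    rcases hN.eq_or_lt with h | hN'
    · have h0 : v 0 = 0 := by linarith [hv 0, hv 1, hv 2]
      have h1 : v 1 = 0 := by linarith [hv 0, hv 1, hv 2]
      have h2 : v 2 = 0 := by linarith [hv 0, hv 1, hv 2]
      simp [h0, h1, h2]
    · have e : c * v 0 + c * v 1 + c * v 2 = c * (v 0 + v 1 + v 2) := by ring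
      rw [e]
      field_simp
  sub := fun v w hv hw => by
    unfold ψF
    simp only [Pi.add_apply]
    have := F3_sub_add (hv 0) (hv 1) (hv 2) (hw 0) (hw 1) (hw 2)
    linarith
  vert := fun i => by
    unfold ψF F3
    fin_cases i <;> simp

/-- The chi-square functional of a family in terms of the test. -/
theorem xx_eq_ψF {ι : Type*} [Fintype ι] {l : ι → Vc} (h : WS l) : xx l = (1 / 3) * ∑ t, ψF (l t) + 2 / 3 := by
  unfold xx sumF ψF
  rw [Finset.sum_sub_distrib, sum_N h.tot]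
  ring

theorem Xbar_eq (hp : WProb p) (h0 : -(1 / 2) ≤ lam) (h1 : lam ≤ 1) (n : ℕ) :
    Xbar p lam n = (1 / 3) * GG p lam n ψF + 2 / 3 := by
  unfold Xbar GG MF
  have hw := gwWeight_wprob hp n
  have e : ∀ T : GWTree n, xx (glev lam n T) = (1 / 3) * ∑ t, ψF (glev lam n T t) + 2 / 3 :=
    fun T => xx_eq_ψF (glev_ws h0 h1 n T)
  rw [Ew_congr _ _ e, Ew_add hw ((bdd_sum (glev_ws h0 h1 n) ψF_pre).const_mul _)
    (BddF.of_Icc (a := 2 / 3) (b := 2 / 3) fun _ => ⟨le_rfl, le_rfl⟩), Ew_const hw, Ew_const_mul]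

end Vale.Agent.Lib.P154P
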