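import Vale.Agent.Lib.P154P.NegHalf

/-!
The Poisson case reduces to the critical curve: a bound on the functional at offspring mean `1 / μ ^ 2`
gives nonreconstruction for all smaller means, with the end point `λ = -1/2` as a limit.
-/

noncomputable section

open Finset Filter Topology

namespace Vale.Agent.Lib.P154P

open Vale.Agent.Lib.P154

/-- Monotonicity of the functional in the mean and in the eigenvalue, for the Poisson family. -/
theorem Xbar_poisson_box {d d' μ μ' : ℝ} (hd : 0 ≤ d) (hdd : d ≤ d') (h0 : 0 ≤ μ) (hμ : μ ≤ μ') (h0' : 0 < μ')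
    (h1 : μ' ≤ 1 / 2) (n : ℕ) : Xbar (poissonLaw d) (-μ) n ≤ Xbar (poissonLaw d') (-μ') n := by
  have hp := poisson_wprob hd
  have hp' := poisson_wprob (hd.trans hdd)
  have hm : μ ≤ 1 / 2 := hμ.trans h1
  rw [Xbar_eq hp (by linarith) (by linarith) n, Xbar_eq hp' (by linarith) (by linarith) n]
  have := GG_box hp hp' (poisson_stoch hd hdd) h0 hμ h0' h1 n ψF ψF_pre
  linarith

/-- The Poisson case from the critical curve. -/
theorem poisson_of_critical
    (H : ∀ μ : ℝ, 0 < μ → μ ≤ 1 / 2 → Tendsto (Xbar (poissonLaw (1 / μ ^ 2)) (-μ)) atTop (𝓝 0)) (d lam : ℝ) (hd : 0 < d)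
    (h0 : -(1 / 2) ≤ lam) (h1 : lam < 0) (hKS : d * lam ^ 2 ≤ 1) :
    (∀ n, Summable (fun T : GWTree n => gwWeight (poissonLaw d) n T * gwTreeAdvantage 3 lam n T))
      ∧ Tendsto (gwAdvantage (poissonLaw d) 3 lam) atTop (𝓝 0) := by
  obtain ⟨μ, rfl⟩ : ∃ μ, lam = -μ := ⟨-lam, by ring⟩
  have hμ0 : 0 < μ := by linarith
  have hμ1 : μ ≤ 1 / 2 := by linarith
  have hsq : (-μ) ^ 2 = μ ^ 2 := by ring
  rw [hsq] at hKS
  have hμ2 : 0 < μ ^ 2 := by positivity
  have hdd : d ≤ 1 / μ ^ 2 := by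
    rw [le_div_iff₀ hμ2]
    exact hKS
  refine gw_neg_of_bound (poisson_wprob hd.le) (H μ hμ0 hμ1) hμ0 hμ1 ?_ ?_
  · intro ν hν0 hν hν1 n
    exact Xbar_poisson_box hd.le hdd hν0.le hν hμ0 hμ1 n
  · intro hm ν hν0 hν1 n
    exact Xbar_poisson_box hd.le hdd hν0.le (by rw [hm]; exact hν1.le) hμ0 hμ1 n

end Vale.Agent.Lib.P154P
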