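import Vale.Agent.Lib.P154P.Tail
import Vale.Agent.Lib.P154C.FhatBd

/-!
From the last level of a table at the corner of a box to bounds for all offspring means and eigenvalues in the box.
-/

noncomputable section

open Finset

namespace Vale.Agent.Lib.P154P

open Vale.Agent.Lib.P154 Vale.Agent.Lib.P154B Vale.Agent.Lib.P154.Mellin Vale.Agent.Lib.P154Q

theorem gwFun_neg_fhat {p : ℕ → ℝ} {mu : ℝ} (h0 : 0 ≤ mu) (h1 : mu ≤ 1 / 2) {c : Vc} (hc : IsExpN c) (m : ℕ) :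
    gwFun p (-mu) m (fun x => - fhat c x) = - Ex p (-mu) m (fhat c) := by
  have hl0 : -(1 / 2) ≤ -mu := by linarith
  have hl1 : -mu ≤ 1 := by linarith
  unfold gwFun Ex
  have e2 := Ew_const_mul (w := gwWeight p m) (-1) (fun T => EF (fhat c) (glev (-mu) m T))
  rw [neg_one_mul] at e2
  rw [← e2]
  refine Ew_congr _ _ fun T => ?_
  unfold sigFun
  simp only [Finset.sum_neg_distrib]
  rw [sum_fhat (glev_ws hl0 hl1 m T), EF_fhat hc.toIsExp (glev_ws hl0 hl1 m T)]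
  ring

/-- A bound of the test at the corner of a box bounds the defect at a point of the box. -/
theorem ga_box {c : Vc} (hc : IsExpN c) {p p' : ℕ → ℝ} (hp : WProb p) (hp' : WProb p') (hst : StochLE p p') {μ μ' : ℝ} (h0 : 0 ≤ μ)
    (hμ : μ ≤ μ') (h0' : 0 < μ') (h1 : μ' ≤ 1 / 2) {N : ℕ} {C : ℝ}
    (hC : gwFun p' (-μ') N (fun x => - fhat c x) ≤ -C) : 1 - Ex p (-μ) N (fhat c) ≤ 1 - C := by
  have h2 := gwFun_box hp hp' hst h0 hμ h0' h1 N _ (fhat_isTest hc)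
  rw [gwFun_neg_fhat h0 (hμ.trans h1) hc] at h2
  linarith

/-- The digits of a Poisson law give a sequence of functionals for the tables. -/
theorem funSeq_poi {a c P F E : ℕ} (hc : 0 < c) (hF : 0 < F) (hE : 0 < E) (hex : (F : ℝ) / E ≤ Real.exp (-((a : ℝ) / c)))
    {qs : List ℕ} (h : poiChk P a c F E 0 1 qs = true) {μ : ℝ} (h0 : 0 ≤ μ) (h1 : μ ≤ 1 / 2) :
    FunSeq (fun n => gwFun (poissonLaw ((a : ℝ) / c)) (-μ) n) μ P qs :=
  funSeq_gw (poisson_wprob (by positivity)) h0 h1 (poi_digits hc hF hE hex h)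

/-- A rational lower bound of the weight at zero of a Poisson law. -/
theorem hex_of {d x : ℝ} {n Un k : ℕ} (hx : d = n * x) (hU : Real.exp x ≤ (Un : ℝ) / 2 ^ k) :
    ((2 ^ (k * n) : ℕ) : ℝ) / ((Un ^ n : ℕ) : ℝ) ≤ Real.exp (-d) := by
  have h := poisson_zero_lb hx hU
  refine le_trans (le_of_eq ?_) h
  push_cast
  rw [div_pow, one_div_div, pow_mul]

/-- An upper bound for the exponential of a negative number. -/
theorem exp_neg_le_of {x C : ℝ} (hx : 0 ≤ x) (hC : 0 < C) (h : 1 ≤ C * (1 + x + x ^ 2 / 2)) : Real.exp (-x) ≤ C := by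
  have h1 := Real.quadratic_le_exp_of_nonneg hx
  have h2 : 0 < 1 + x + x ^ 2 / 2 := by positivity
  rw [Real.exp_neg, inv_le_iff_one_le_mul₀ (Real.exp_pos x)]
  calc 1 ≤ C * (1 + x + x ^ 2 / 2) := h
    _ ≤ C * Real.exp x := mul_le_mul_of_nonneg_left h1 hC.le

/-- Rounding a triple down to a denominator `2 ^ k`. -/
def rnd (k : ℕ) (X : Trip) (D : ℕ) : Trip := (X.1 * 2 ^ k / D, X.2.1 * 2 ^ k / D, X.2.2 * 2 ^ k / D)

theorem rnd_le (k a D : ℕ) (hD : 0 < D) : (((a * 2 ^ k / D : ℕ) : ℝ)) / ((2 ^ k : ℕ) : ℝ) ≤ (a : ℝ) / D := by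
  have h := Nat.div_mul_le_self (a * 2 ^ k) D
  have hR : ((a * 2 ^ k / D : ℕ) : ℝ) * D ≤ (a : ℝ) * 2 ^ k := by exact_mod_cast h
  have hDR : (0 : ℝ) < D := by exact_mod_cast hD
  rw [div_le_div_iff₀ (by positivity) hDR]
  push_cast
  linarith

/-- Test functions decrease along coordinates. -/
theorem IsTest.anti {ψ : Vec → ℝ} (h : IsTest ψ) {x y : Vec} (hx : NN x) (hxy : ∀ i, x i ≤ y i) : ψ y ≤ ψ x := by
  have hd : NN (y - x) := fun i => by
    simp only [Pi.sub_apply]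
    linarith [hxy i]
  have e : y = x + (y - x) := by
    funext i
    simp
  have h1 := h.sub x (y - x) hx hd
  rw [← e] at h1
  have h2 := h.nonpos hd
  linarith

/-- One step of the Newton iteration for a fifth root. -/
def newt5 (Y r : ℕ) : ℕ := Nat.div (Nat.add (Nat.mul 4 r) (Nat.div Y (Nat.pow r 4))) 5

/-- A lower bound of the fifth root, from a start above the root: the iteration is only a search. -/
def root5 (Y r0 : ℕ) : ℕ :=
  (fun r => Bool.rec 0 r (Nat.ble (Nat.pow r 5) Y))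
    (Nat.sub (Nat.rec (motive := fun _ => ℕ) (Nat.add r0 1) (fun _ ih => newt5 Y ih) 10) 1)

theorem root5_le (Y r0 : ℕ) : (root5 Y r0) ^ 5 ≤ Y := by
  unfold root5
  simp only
  cases h : Nat.ble (Nat.pow (Nat.sub (Nat.rec (motive := fun _ => ℕ) (Nat.add r0 1) (fun _ ih => newt5 Y ih) 10) 1) 5) Y with
  | false => simp
  | true => exact Nat.le_of_ble_eq_true h

/-- The monomial with exponents `(2,2,1)/5` on integers, by a fifth root. -/
def mon5 (a b c : ℕ) : ℕ :=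
  root5 (Nat.mul (Nat.mul (Nat.mul a a) (Nat.mul b b)) c) (Nat.div (Nat.add (Nat.mul 2 (Nat.add a b)) c) 5)

theorem mon5_pow (a b c : ℕ) : (mon5 a b c) ^ 5 ≤ a ^ 2 * b ^ 2 * c := by
  have e : Nat.mul (Nat.mul (Nat.mul a a) (Nat.mul b b)) c = a ^ 2 * b ^ 2 * c := by
    show a * a * (b * b) * c = a ^ 2 * b ^ 2 * c
    ring
  calc (mon5 a b c) ^ 5 ≤ Nat.mul (Nat.mul (Nat.mul a a) (Nat.mul b b)) c := root5_le _ _
    _ = a ^ 2 * b ^ 2 * c := e

theorem mon5_lower {k : ℕ} (a b c : ℕ) :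
    ((mon5 a b c : ℕ) : ℝ) / 2 ^ k
      ≤ ((a : ℝ) / 2 ^ k) ^ ((2 : ℝ) / 5) * ((b : ℝ) / 2 ^ k) ^ ((2 : ℝ) / 5) * ((c : ℝ) / 2 ^ k) ^ ((1 : ℝ) / 5) := by
  have h := mon5_pow a b c
  have hR : ((mon5 a b c : ℕ) : ℝ) ^ 5 ≤ (a : ℝ) ^ 2 * (b : ℝ) ^ 2 * (c : ℝ) := by exact_mod_cast h
  set x := (a : ℝ) / 2 ^ k with hx
  set y := (b : ℝ) / 2 ^ k with hy
  set z := (c : ℝ) / 2 ^ k with hz
  have hx0 : 0 ≤ x := by positivity
  have hy0 : 0 ≤ y := by positivity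
  have hz0 : 0 ≤ z := by positivity
  set t := ((mon5 a b c : ℕ) : ℝ) / 2 ^ k with ht
  have ht0 : 0 ≤ t := by positivity
  have h5 : t ^ 5 ≤ x ^ 2 * y ^ 2 * z := by
    have e1 : t ^ 5 = ((mon5 a b c : ℕ) : ℝ) ^ 5 / (2 ^ k) ^ 5 := by
      rw [ht, div_pow]
    have e2 : x ^ 2 * y ^ 2 * z = ((a : ℝ) ^ 2 * (b : ℝ) ^ 2 * (c : ℝ)) / (2 ^ k) ^ 5 := by
      rw [hx, hy, hz]
      field_simp
    rw [e1, e2]
    exact div_le_div_of_nonneg_right hR (by positivity)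
  have e3 : x ^ ((2 : ℝ) / 5) * y ^ ((2 : ℝ) / 5) * z ^ ((1 : ℝ) / 5) = (x ^ 2 * y ^ 2 * z) ^ ((1 : ℝ) / 5) := by
    rw [Real.mul_rpow (by positivity) hz0, Real.mul_rpow (by positivity) (by positivity)]
    rw [← Real.rpow_natCast x 2, ← Real.rpow_natCast y 2, ← Real.rpow_mul hx0, ← Real.rpow_mul hy0]
    norm_num
  rw [e3]
  have e4 : t = (t ^ 5) ^ ((1 : ℝ) / 5) := by
    rw [← Real.rpow_natCast t 5, ← Real.rpow_mul ht0]
    norm_num
  rw [e4]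
  exact Real.rpow_le_rpow (by positivity) h5 (by norm_num)

/-- The bound of the test on vectors with denominator `2 ^ k`. -/
def aM (X : Trip) : ℕ := (mon5 X.1 X.2.1 X.2.2 + mon5 X.2.1 X.2.2 X.1 + mon5 X.2.2 X.1 X.2.1) / 3

theorem aM_bd (k : ℕ) (X : Trip) :
    - fhat cA (vecOf X ((2 ^ k : ℕ) : ℝ)) ≤ -((aM X : ℕ) : ℝ) / 2 ^ k := by
  have h1 := mon5_lower (k := k) X.1 X.2.1 X.2.2
  have h2 := mon5_lower (k := k) X.2.1 X.2.2 X.1
  have h3 := mon5_lower (k := k) X.2.2 X.1 X.2.1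
  have hfl := Nat.div_mul_le_self (mon5 X.1 X.2.1 X.2.2 + mon5 X.2.1 X.2.2 X.1 + mon5 X.2.2 X.1 X.2.1) 3
  have hfl' : ((aM X : ℕ) : ℝ) * 3 ≤ ((mon5 X.1 X.2.1 X.2.2 : ℕ) : ℝ) + ((mon5 X.2.1 X.2.2 X.1 : ℕ) : ℝ)
      + ((mon5 X.2.2 X.1 X.2.1 : ℕ) : ℝ) := by
    exact_mod_cast hfl
  unfold fhat
  simp only [vecOf, cA, Matrix.cons_val_zero, Matrix.cons_val_one, Matrix.cons_val]
  rw [neg_div, neg_le_neg_iff]
  push_cast
  set r1 := ((mon5 X.1 X.2.1 X.2.2 : ℕ) : ℝ)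
  set r2 := ((mon5 X.2.1 X.2.2 X.1 : ℕ) : ℝ)
  set r3 := ((mon5 X.2.2 X.1 X.2.1 : ℕ) : ℝ)
  have h4 : ((aM X : ℕ) : ℝ) / 2 ^ k ≤ (1 / 3) * (r1 / 2 ^ k + r2 / 2 ^ k + r3 / 2 ^ k) := by
    have e : (1 / 3) * (r1 / 2 ^ k + r2 / 2 ^ k + r3 / 2 ^ k) = ((r1 + r2 + r3) / 3) / 2 ^ k := by ring
    rw [e]
    refine div_le_div_of_nonneg_right ?_ (by positivity)
    linarith
  refine h4.trans ?_
  have e2 : ∀ p q u v w t : ℝ, (1 : ℝ) / 6 * (p * q * t + q * u * v + u * p * w + p * u * w + u * q * v + q * p * t)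
      = (1 / 3) * (p * q * t + q * u * v + u * p * w) := fun p q u v w t => by ring
  rw [e2]
  linarith

/-- The bound of the functional with exponents `(2,2,1)/5`, computed after rounding to `24` bits. -/
def aR (X : Trip) (D : ℕ) : ℕ := aM (rnd 24 X D)

theorem fhatR_bd : TestBd (fun x => - fhat cA x) 24 aR := by
  intro X D hD
  refine (IsTest.anti (fhat_isTest cA_expN) (x := vecOf (rnd 24 X D) ((2 ^ 24 : ℕ) : ℝ)) ?_ ?_).trans (aM_bd 24 (rnd 24 X D))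
  · intro i
    unfold vecOf
    fin_cases i <;> simp <;> positivity
  · intro i
    fin_cases i
    · exact rnd_le 24 X.1 D hD
    · exact rnd_le 24 X.2.1 D hD
    · exact rnd_le 24 X.2.2 D hD

/-- The bound in the form used by the limit theorems. -/
theorem le_one_sub_exp_of {x C v : ℝ} (hx : 0 ≤ x) (hC : 0 < C) (h : 1 ≤ C * (1 + x + x ^ 2 / 2)) (hv : v ≤ 1 - C) :
    v ≤ 1 - Real.exp (-x) := by
  have := exp_neg_le_of hx hC h
  linarith

end Vale.Agent.Lib.P154P
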