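import Vale.Agent.Lib.P154P.Mix

/-!
The channel on test functions, and the levels of a Galton-Watson tree in the Blackwell order.
-/

noncomputable section

open Finset

namespace Vale.Agent.Lib.P154P

open Vale.Agent.Lib.P154

/-- The channel acting on one vector. -/
def chV (lam : ℝ) (v : Vc) : Vc := fun i => lam * v i + (1 - lam) / 3 * (v 0 + v 1 + v 2)

theorem chan_eq {ι : Type*} (lam : ℝ) (l : ι → Vc) (t : ι) : chan lam l t = chV lam (l t) := rfl

theorem sum3_le {v : Vc} (hv : NN v) (i : Fin 3) : v i ≤ v 0 + v 1 + v 2 := by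
  have h0 := hv 0
  have h1 := hv 1
  have h2 := hv 2
  fin_cases i <;> simp <;> linarith

theorem chV_nn {lam : ℝ} (h0 : -(1 / 2) ≤ lam) (h1 : lam ≤ 1) {v : Vc} (hv : NN v) : NN (chV lam v) := by
  intro i
  unfold chV
  have hi := hv i
  have hS := sum3_le hv i
  have hN : 0 ≤ v 0 + v 1 + v 2 := hi.trans hS
  rcases le_total 0 lam with hl | hl
  · have := mul_nonneg hl hi
    have h3 := mul_nonneg (by linarith : (0 : ℝ) ≤ (1 - lam) / 3) hN
    linarith
  · have h2 : lam * (v 0 + v 1 + v 2) ≤ lam * v i := mul_le_mul_of_nonpos_left hS hl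
    nlinarith

theorem chV_smul (lam c : ℝ) (v : Vc) : chV lam (c • v) = c • chV lam v := by
  funext i
  simp only [chV, Pi.smul_apply, smul_eq_mul]
  ring

theorem chV_add (lam : ℝ) (v w : Vc) : chV lam (v + w) = chV lam v + chV lam w := by
  funext i
  simp only [chV, Pi.add_apply]
  ring

theorem chV_chV (a b : ℝ) (v : Vc) : chV a (chV b v) = chV (a * b) v := by
  funext i
  simp only [chV]
  ring

theorem WS.chan {ι : Type*} [Fintype ι] {l : ι → Vc} (h : WS l) {lam : ℝ} (h0 : -(1 / 2) ≤ lam) (h1 : lam ≤ 1) :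
    WS (chan lam l) where
  nonneg := fun t => chV_nn h0 h1 (h.nonneg t)
  tot := fun i => by
    unfold Vale.Agent.Lib.P154.chan
    rw [Finset.sum_add_distrib, ← Finset.mul_sum, ← Finset.mul_sum, h.tot, sum_N h.tot]
    ring
  sym := fun σ => by
    obtain ⟨π, hπ⟩ := h.sym σ
    refine ⟨π, fun t => ?_⟩
    funext i
    simp only [Vale.Agent.Lib.P154.chan, Function.comp, hπ]
    have : l t (σ 0) + l t (σ 1) + l t (σ 2) = l t 0 + l t 1 + l t 2 := by
      have := Equiv.sum_comp σ (fun j => l t j)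
      simpa only [Fin.sum_univ_three] using this
    rw [this]

/-- The normalised pull-back of a test function under the channel. -/
def nrmφ (φ : Vc → ℝ) (lam : ℝ) (v : Vc) : ℝ :=
  φ (chV lam v) - ∑ i, v i * φ (chV lam (Pi.single i 1))

theorem nrmφ_pre {φ : Vc → ℝ} (hφ : IsPre φ) {lam : ℝ} (h0 : -(1 / 2) ≤ lam) (h1 : lam ≤ 1) :
    IsPre (nrmφ φ lam) where
  hom := fun c v hc hv => by
    unfold nrmφ
    rw [chV_smul, hφ.hom _ _ hc (chV_nn h0 h1 hv), mul_sub, Finset.mul_sum]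
    congr 1
    refine Finset.sum_congr rfl fun i _ => ?_
    simp only [Pi.smul_apply, smul_eq_mul]
    ring
  sub := fun v w hv hw => by
    unfold nrmφ
    rw [chV_add]
    have := hφ.sub _ _ (chV_nn h0 h1 hv) (chV_nn h0 h1 hw)
    have e : ∑ i, (v + w) i * φ (chV lam (Pi.single i 1))
        = ∑ i, v i * φ (chV lam (Pi.single i 1)) + ∑ i, w i * φ (chV lam (Pi.single i 1)) := by
      rw [← Finset.sum_add_distrib]
      refine Finset.sum_congr rfl fun i _ => ?_
      simp only [Pi.add_apply]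
      ring
    rw [e]
    linarith
  vert := fun i => by
    unfold nrmφ
    have : ∑ j, (Pi.single i 1 : Vc) j * φ (chV lam (Pi.single j 1)) = φ (chV lam (Pi.single i 1)) := by
      rw [Finset.sum_eq_single i]
      · simp
      · intro j _ hj
        simp [Pi.single_apply, hj]
      · simp
    rw [this, sub_self]

theorem sum_chV {ι : Type*} [Fintype ι] {l : ι → Vc} (h : WS l) (φ : Vc → ℝ) (lam : ℝ) :
    ∑ t, φ (chV lam (l t)) = ∑ t, nrmφ φ lam (l t) + ∑ i, φ (chV lam (Pi.single i 1)) := by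
  unfold nrmφ
  rw [Finset.sum_sub_distrib, Finset.sum_comm (s := Finset.univ) (t := Finset.univ)
    (f := fun t i => l t i * φ (chV lam (Pi.single i 1)))]
  have : ∑ i, ∑ t, l t i * φ (chV lam (Pi.single i 1)) = ∑ i, φ (chV lam (Pi.single i 1)) := by
    refine Finset.sum_congr rfl fun i _ => ?_
    rw [← Finset.sum_mul, h.tot, one_mul]
  rw [this]
  ring

/-- A degraded channel loses information. -/
theorem sum_chV_le {ι : Type*} [Fintype ι] {y : ι → Vc} (h : WS y) {φ : Vc → ℝ} (hφ : IsPre φ) {α : ℝ}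
    (h0 : 0 ≤ α) (h1 : α ≤ 1) : ∑ t, φ (chV α (y t)) ≤ ∑ t, φ (y t) := by
  have hb : 0 ≤ (1 - α) / 3 := by linarith
  have key : ∀ t, φ (chV α (y t)) ≤ α * φ (y t) + (1 - α) / 3 * φ (y t)
      + (1 - α) / 3 * φ (y t ∘ permR) + (1 - α) / 3 * φ (y t ∘ permR2) := by
    intro t
    have hv := h.nonneg t
    have e : chV α (y t) = α • y t + ((1 - α) / 3) • y t + ((1 - α) / 3) • (y t ∘ permR)
        + ((1 - α) / 3) • (y t ∘ permR2) := by
      funext i
      fin_cases i <;> simp [chV, permR, permR2] <;> ring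
    rw [e]
    have h2 := hv.comp permR
    have h3 := hv.comp permR2
    have a1 := hφ.sub _ _ (((NN.smul h0 hv).add (NN.smul hb hv)).add (NN.smul hb h2)) (NN.smul hb h3)
    have a2 := hφ.sub _ _ ((NN.smul h0 hv).add (NN.smul hb hv)) (NN.smul hb h2)
    have a3 := hφ.sub _ _ (NN.smul h0 hv) (NN.smul hb hv)
    rw [hφ.hom _ _ hb h3] at a1
    rw [hφ.hom _ _ hb h2] at a2
    rw [hφ.hom _ _ h0 hv, hφ.hom _ _ hb hv] at a3
    linarith
  have e1 := h.sum_comp permR φ
  have e2 := h.sum_comp permR2 φ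
  calc ∑ t, φ (chV α (y t))
      ≤ ∑ t, (α * φ (y t) + (1 - α) / 3 * φ (y t)
        + (1 - α) / 3 * φ (y t ∘ permR) + (1 - α) / 3 * φ (y t ∘ permR2)) :=
        Finset.sum_le_sum fun t _ => key t
    _ = ∑ t, φ (y t) := by
        simp only [Finset.sum_add_distrib, ← Finset.mul_sum, e1, e2]
        ring

/-! ### Levels of the tree -/

theorem glev_ws {lam : ℝ} (h0 : -(1 / 2) ≤ lam) (h1 : lam ≤ 1) : ∀ (n : ℕ) (T : GWTree n), WS (glev lam n T)
  | 0, T => by
    have hW := glev_zero_wsig lam T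
    exact ⟨fun t i => hW.nonneg t i, hW.tot, fun σ => by
      obtain ⟨π, hπ⟩ := hW.sym σ
      exact ⟨π, fun t => funext fun i => hπ t i⟩⟩
  | n + 1, T => by
    rw [glev_succ]
    exact WS.piS fun c => (glev_ws h0 h1 n _).chan h0 h1

/-- The mean of a test function at level `n`. -/
def GG (p : ℕ → ℝ) (lam : ℝ) (n : ℕ) (φ : Vc → ℝ) : ℝ := MF (gwWeight p n) (glev lam n) φ

/-- The child family at level `n`. -/
def cF (lam : ℝ) (n : ℕ) : ∀ T : GWTree n, GWSpins 3 n T → Vc := fun T => chan lam (glev lam n T)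

theorem cF_ws {lam : ℝ} (h0 : -(1 / 2) ≤ lam) (h1 : lam ≤ 1) (n : ℕ) (T : GWTree n) : WS (cF lam n T) :=
  (glev_ws h0 h1 n T).chan h0 h1

/-- The mean of a test function over the children at level `n`. -/
def GC (p : ℕ → ℝ) (lam : ℝ) (n : ℕ) (φ : Vc → ℝ) : ℝ := MF (gwWeight p n) (cF lam n) φ

variable {p : ℕ → ℝ} {lam : ℝ} {φ : Vc → ℝ}

theorem GG_zero (hp : WProb p) (hφ : IsPre φ) : GG p lam 0 φ = 0 := by
  unfold GG MF
  have : ∀ T : GWTree 0, ∑ t, φ (glev lam 0 T t) = 0 := by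
    intro T
    refine Finset.sum_eq_zero fun t _ => ?_
    have e : glev lam 0 T t = Pi.single (gwSpinAtZero t) 1 := by
      funext i
      change (if i = gwSpinAtZero t then (1 : ℝ) else 0) = _
      simp [Pi.single_apply]
    rw [e, hφ.vert]
  rw [Ew_congr _ (fun _ => (0 : ℝ)) this, Ew_const (gwWeight_wprob hp 0)]

theorem GG_succ (hp : WProb p) (h0 : -(1 / 2) ≤ lam) (h1 : lam ≤ 1) (hφ : IsPre φ) (n : ℕ) :
    GG p lam (n + 1) φ = ∑' k, p k * Pw (gwWeight p n) (cF lam n) k φ := by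
  have hb : BddF (fun T : GWTree (n + 1) => ∑ t, φ (glev lam (n + 1) T t)) :=
    bdd_sum (glev_ws h0 h1 (n + 1)) hφ
  have := Ew_mix hp (gwWeight_wprob hp n) (F := fun T : GWTree (n + 1) => ∑ t, φ (glev lam (n + 1) T t)) hb
  refine Eq.trans this ?_
  congr 1
  funext k
  congr 1
  refine Ew_congr _ _ fun ts => ?_
  have e := glev_succ lam n ⟨k, ts⟩
  dsimp only
  rw [e]
  rfl

/-- The channel at the level of means. -/
theorem GC_eq (hp : WProb p) (h0 : -(1 / 2) ≤ lam) (h1 : lam ≤ 1) (hφ : IsPre φ) (n : ℕ) :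
    GC p lam n φ = GG p lam n (nrmφ φ lam) + ∑ i, φ (chV lam (Pi.single i 1)) := by
  unfold GC GG MF
  have hw := gwWeight_wprob hp n
  have e : ∀ T : GWTree n, ∑ t, φ (cF lam n T t)
      = ∑ t, nrmφ φ lam (glev lam n T t) + ∑ i, φ (chV lam (Pi.single i 1)) :=
    fun T => sum_chV (glev_ws h0 h1 n T) φ lam
  rw [Ew_congr _ _ e, Ew_add hw (bdd_sum (glev_ws h0 h1 n) (nrmφ_pre hφ h0 h1))
    (BddF.of_Icc (a := ∑ i, φ (chV lam (Pi.single i 1))) (b := ∑ i, φ (chV lam (Pi.single i 1)))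
      fun _ => ⟨le_rfl, le_rfl⟩), Ew_const hw]

theorem GG_nonpos (hp : WProb p) (h0 : -(1 / 2) ≤ lam) (h1 : lam ≤ 1) (hφ : IsPre φ) (n : ℕ) :
    GG p lam n φ ≤ 0 :=
  MF_nonpos (gwWeight_wprob hp n) (glev_ws h0 h1 n) hφ

end Vale.Agent.Lib.P154P
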