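import Vale.Agent.Lib.P154P.Pre
import Vale.Agent.Lib.P154.TreeGW

/-!
Mixtures of signals: means of test functions, products of mixtures, the channel.
-/

noncomputable section

open Finset

namespace Vale.Agent.Lib.P154P

open Vale.Agent.Lib.P154

section fubini
variable {X Y : Type} {w : X → ℝ} {v : Y → ℝ}

theorem Ew_fubini (hw : WProb w) (hv : WProb v) {F : X × Y → ℝ} (hF : BddF F) :
    Ew (fun p : X × Y => w p.1 * v p.2) F = Ew v (fun y => Ew w (fun x => F (x, y))) := by
  have hu := hw.prod hv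
  have hs := hu.summable_mul hF
  unfold Ew
  have hs' : Summable (fun q : Y × X => v q.1 * (w q.2 * F (q.2, q.1))) := by
    have := (Equiv.prodComm Y X).summable_iff.2 hs
    refine this.congr fun q => ?_
    simp only [Function.comp, Equiv.prodComm_apply, Prod.fst_swap, Prod.snd_swap, Prod.swap]
    ring
  have hbdd : ∀ y, BddF (fun x => F (x, y)) := by
    intro y
    obtain ⟨C, hC⟩ := hF
    exact ⟨C, fun x => hC _⟩
  have e1 : ∑' p : X × Y, w p.1 * v p.2 * F p = ∑' q : Y × X, v q.1 * (w q.2 * F (q.2, q.1)) := by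
    rw [← (Equiv.prodComm Y X).tsum_eq]
    congr 1
    funext q
    simp only [Equiv.prodComm_apply, Prod.fst_swap, Prod.snd_swap, Prod.swap]
    ring
  rw [e1, hs'.tsum_prod' (fun y => by
    have := (hw.summable_mul (hbdd y)).mul_left (v y)
    exact this)]
  congr 1
  funext y
  change ∑' x, v y * (w x * F (x, y)) = v y * ∑' x, w x * F (x, y)
  exact tsum_mul_left

theorem Ew_finset_sum {κ : Type*} (s : Finset κ) (hw : WProb w) {g : κ → X → ℝ} (hg : ∀ t ∈ s, BddF (g t)) :
    Ew w (fun x => ∑ t ∈ s, g t x) = ∑ t ∈ s, Ew w (g t) := by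
  unfold Ew
  simp only [Finset.mul_sum]
  rw [Summable.tsum_finsetSum]
  exact fun t ht => hw.summable_mul (hg t ht)

end fubini

section mean
variable {X : Type} {ι : X → Type} [∀ x, Fintype (ι x)]

/-- The mean of a test function over a mixture of signals. -/
def MF (w : X → ℝ) (l : ∀ x, ι x → Vc) (φ : Vc → ℝ) : ℝ := Ew w (fun x => ∑ t, φ (l x t))

variable {w : X → ℝ} {l : ∀ x, ι x → Vc} {φ ψ : Vc → ℝ}

theorem bdd_sum (hl : ∀ x, WS (l x)) (hφ : IsPre φ) : BddF (fun x => ∑ t, φ (l x t)) :=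
  BddF.of_Icc (a := φ 1) (b := 0) fun x => ⟨(hl x).lower1 hφ, (hl x).upper1 hφ⟩

theorem MF_nonpos (hw : WProb w) (hl : ∀ x, WS (l x)) (hφ : IsPre φ) : MF w l φ ≤ 0 :=
  Ew_le_of_le hw (bdd_sum hl hφ) fun x => (hl x).upper1 hφ

theorem MF_lower (hw : WProb w) (hl : ∀ x, WS (l x)) (hφ : IsPre φ) : φ 1 ≤ MF w l φ := by
  have h := Ew_mono hw (BddF.of_Icc (f := fun _ => φ 1) (a := φ 1) (b := φ 1) fun _ => ⟨le_rfl, le_rfl⟩)
    (bdd_sum hl hφ) (fun x => (hl x).lower1 hφ)
  rwa [Ew_const hw] at h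

theorem MF_mono (hw : WProb w) (hl : ∀ x, WS (l x)) (hφ : IsPre φ) (hψ : IsPre ψ)
    (h : ∀ v, NN v → φ v ≤ ψ v) : MF w l φ ≤ MF w l ψ :=
  Ew_mono hw (bdd_sum hl hφ) (bdd_sum hl hψ) fun x =>
    Finset.sum_le_sum fun t _ => h _ ((hl x).nonneg t)

/-- Integration over a mixture keeps the class. -/
theorem MF_pre (hw : WProb w) (hl : ∀ x, WS (l x)) (hφ : IsPre φ) :
    IsPre (fun y => MF w l (fun v => φ (y * v))) where
  hom := fun c y hc hy => by
    unfold MF
    rw [← Ew_const_mul]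
    refine Ew_congr _ _ fun x => ?_
    have := ((hl x).pre hφ).hom c y hc hy
    exact this
  sub := fun y z hy hz => by
    unfold MF
    have hby := bdd_sum hl (hφ.mulLeft hy)
    have hbz := bdd_sum hl (hφ.mulLeft hz)
    have hbs := bdd_sum hl (hφ.mulLeft (hy.add hz))
    rw [← Ew_add hw hby hbz]
    refine Ew_mono hw hbs (hby.add hbz) fun x => ?_
    exact ((hl x).pre hφ).sub y z hy hz
  vert := fun i => by
    unfold MF
    have : ∀ x, ∑ t, φ ((Pi.single i 1 : Vc) * l x t) = 0 := fun x => ((hl x).pre hφ).vert i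
    rw [Ew_congr _ (fun _ => (0 : ℝ)) this, Ew_const hw]

end mean

/-! ### Products of two families -/

section prod
variable {ι κ : Type*} [Fintype ι] [Fintype κ]

theorem WS.prod {l : ι → Vc} {m : κ → Vc} (hl : WS l) (hm : WS m) : WS (fun q : ι × κ => l q.1 * m q.2) where
  nonneg := fun q => (hl.nonneg _).mul (hm.nonneg _)
  tot := fun i => by
    rw [Fintype.sum_prod_type]
    simp only [Pi.mul_apply]
    simp only [← Finset.mul_sum, hm.tot, mul_one, hl.tot]
  sym := fun σ => by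
    obtain ⟨π, hπ⟩ := hl.sym σ
    obtain ⟨π', hπ'⟩ := hm.sym σ
    refine ⟨Equiv.prodCongr π π', fun q => ?_⟩
    simp only [Equiv.prodCongr_apply, Prod.map_fst, Prod.map_snd, hπ, hπ']
    rfl

end prod

section piS
variable {k : ℕ} {ι : Fin k → Type} [∀ c, Fintype (ι c)]

/-- Dependent product of a family, as a vector. -/
theorem piS_apply (l : ∀ c, ι c → Vc) (τ : ∀ c, ι c) : piS l τ = ∏ c, l c (τ c) := by
  funext i
  rw [Finset.prod_apply]
  rfl

theorem WS.piS {l : ∀ c, ι c → Vc} (h : ∀ c, WS (l c)) : WS (piS l) where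
  nonneg := fun τ i => Finset.prod_nonneg fun c _ => (h c).nonneg _ _
  tot := fun i => by
    unfold Vale.Agent.Lib.P154.piS
    have := Finset.prod_univ_sum (fun c : Fin k => (Finset.univ : Finset (ι c))) (fun c t => l c t i)
    rw [Fintype.piFinset_univ] at this
    rw [← this]
    simp [(h _).tot]
  sym := fun σ => by
    choose π hπ using fun c => (h c).sym σ
    refine ⟨Equiv.piCongrRight π, fun τ => ?_⟩
    funext i
    unfold Vale.Agent.Lib.P154.piS
    refine Finset.prod_congr rfl fun c _ => ?_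
    simp only [Equiv.piCongrRight_apply, Pi.map_apply, hπ]
    rfl

end piS

theorem sum_piS_succ_vec {k : ℕ} {ι : Fin (k + 1) → Type} [∀ c, Fintype (ι c)] (g : Vc → ℝ)
    (l : ∀ c, ι c → Vc) :
    ∑ τ, g (piS l τ) = ∑ q : ι 0 × ((c : Fin k) → ι c.succ), g (l 0 q.1 * piS (fun c : Fin k => l c.succ) q.2) := by
  rw [← Equiv.sum_comp (Fin.consEquiv ι)]
  refine Finset.sum_congr rfl fun p _ => ?_
  congr 1
  funext i
  unfold piS
  rw [Fin.prod_univ_succ]
  rfl

/-! ### Powers of a mixture -/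

section power
variable {X : Type} {ι : X → Type} [∀ x, Fintype (ι x)] {w : X → ℝ} {c : ∀ x, ι x → Vc} {φ ψ : Vc → ℝ}

/-- The family of a `k`-tuple of children. -/
def tupS (c : ∀ x, ι x → Vc) (k : ℕ) (ts : Fin k → X) : ((i : Fin k) → ι (ts i)) → Vc :=
  piS (fun i => c (ts i))

theorem tupS_ws (hc : ∀ x, WS (c x)) (k : ℕ) (ts : Fin k → X) : WS (tupS c k ts) :=
  WS.piS fun i => hc (ts i)

/-- The mean of a test function over `k` independent children. -/
def Pw (w : X → ℝ) (c : ∀ x, ι x → Vc) (k : ℕ) (φ : Vc → ℝ) : ℝ :=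
  MF (wPow w k) (tupS c k) φ

theorem Pw_zero (hw : WProb w) (hc : ∀ x, WS (c x)) (φ : Vc → ℝ) : Pw w c 0 φ = φ 1 := by
  unfold Pw MF
  have : ∀ ts : Fin 0 → X, ∑ t, φ (tupS c 0 ts t) = φ 1 := by
    intro ts
    have h1 : ∀ τ, tupS c 0 ts τ = 1 := by
      intro τ
      funext i
      simp [tupS, piS]
    simp [h1]
  rw [Ew_congr _ (fun _ => φ 1) this, Ew_const (hw.pow 0)]

theorem Pw_succ (hw : WProb w) (hc : ∀ x, WS (c x)) (hφ : IsPre φ) (k : ℕ) :
    Pw w c (k + 1) φ = Pw w c k (fun y => MF w c (fun v => φ (y * v))) := by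
  unfold Pw MF
  rw [Ew_pow_succ]
  have hk := hw.pow k
  -- the bound
  have hB : BddF (fun p : X × (Fin k → X) =>
      ∑ t, φ (tupS c (k + 1) (Fin.consEquiv (fun _ : Fin (k + 1) => X) p) t)) :=
    BddF.of_Icc (a := φ 1) (b := 0) fun p =>
      ⟨(tupS_ws hc (k + 1) _).lower1 hφ, (tupS_ws hc (k + 1) _).upper1 hφ⟩
  rw [Ew_fubini hw hk hB]
  refine Ew_congr _ _ fun ts => ?_
  -- unfold the sum over spins
  have e : ∀ T : X, ∑ t, φ (tupS c (k + 1) (Fin.consEquiv (fun _ : Fin (k + 1) => X) (T, ts)) t)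
      = ∑ τ, ∑ t, φ (tupS c k ts τ * c T t) := by
    intro T
    have := sum_piS_succ_vec (k := k) (ι := fun i => ι (Fin.consEquiv (fun _ : Fin (k + 1) => X) (T, ts) i)) φ
      (fun i => c (Fin.consEquiv (fun _ : Fin (k + 1) => X) (T, ts) i))
    unfold tupS
    refine this.trans ?_
    rw [Fintype.sum_prod_type, Finset.sum_comm]
    refine Finset.sum_congr rfl fun τ _ => Finset.sum_congr rfl fun t _ => ?_
    rw [mul_comm]
    rfl
  rw [Ew_congr _ _ e]
  have hb : ∀ τ ∈ (Finset.univ : Finset ((i : Fin k) → ι (ts i))),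
      BddF (fun T : X => ∑ t, φ (tupS c k ts τ * c T t)) := by
    intro τ _
    exact bdd_sum (l := c) (φ := fun v => φ (tupS c k ts τ * v)) hc (hφ.mulLeft ((tupS_ws hc k ts).nonneg τ))
  exact Ew_finset_sum Finset.univ hw hb

theorem Pw_pre_inner (hw : WProb w) (hc : ∀ x, WS (c x)) (hφ : IsPre φ) :
    IsPre (fun y => MF w c (fun v => φ (y * v))) := MF_pre hw hc hφ

theorem wPow_ws (hc : ∀ x, WS (c x)) (k : ℕ) : ∀ ts, WS (tupS c k ts) := tupS_ws hc k

theorem Pw_nonpos (hw : WProb w) (hc : ∀ x, WS (c x)) (hφ : IsPre φ) (k : ℕ) : Pw w c k φ ≤ 0 :=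
  MF_nonpos (hw.pow k) (wPow_ws hc k) hφ

theorem Pw_lower (hw : WProb w) (hc : ∀ x, WS (c x)) (hφ : IsPre φ) (k : ℕ) : φ 1 ≤ Pw w c k φ :=
  MF_lower (hw.pow k) (wPow_ws hc k) hφ

/-- More children means more information. -/
theorem Pw_le_succ (hw : WProb w) (hc : ∀ x, WS (c x)) (hφ : IsPre φ) (k : ℕ) :
    Pw w c k φ ≤ Pw w c (k + 1) φ := by
  rw [Pw_succ hw hc hφ]
  refine MF_mono (hw.pow k) (wPow_ws hc k) hφ (MF_pre hw hc hφ) fun y hy => ?_
  have := MF_lower hw hc (hφ.mulLeft hy)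
  simpa using this

/-- Comparison of powers of two mixtures. -/
theorem Pw_le_Pw {Y : Type} {κ : Y → Type} [∀ y, Fintype (κ y)] {v : Y → ℝ} {e : ∀ y, κ y → Vc}
    (hw : WProb w) (hc : ∀ x, WS (c x)) (hv : WProb v) (he : ∀ y, WS (e y))
    (h : ∀ φ, IsPre φ → MF w c φ ≤ MF v e φ) (k : ℕ) :
    ∀ φ, IsPre φ → Pw w c k φ ≤ Pw v e k φ := by
  induction k with
  | zero =>
    intro φ _
    rw [Pw_zero hw hc, Pw_zero hv he]
  | succ k ih =>
    intro φ hφ
    rw [Pw_succ hw hc hφ, Pw_succ hv he hφ]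
    refine (MF_mono (hw.pow k) (wPow_ws hc k) (MF_pre hw hc hφ) (MF_pre hv he hφ) fun y hy => ?_).trans
      (ih _ (MF_pre hv he hφ))
    exact h _ (hφ.mulLeft hy)

/-- The finite-atom analogue of a power: atoms `V a` with weights `W a`. -/
def powP {A : Type*} [Fintype A] (W : A → ℝ) (V : A → Vc) : ℕ → (Vc → ℝ) → ℝ
  | 0, φ => φ 1
  | k + 1, φ => ∑ a, W a * powP W V k (fun y => φ (y * V a))

theorem powP_nonpos {A : Type*} [Fintype A] {W : A → ℝ} {V : A → Vc} (hW : ∀ a, 0 ≤ W a) (hV : ∀ a, NN (V a))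
    (k : ℕ) : ∀ φ, IsPre φ → powP W V k φ ≤ 0 := by
  induction k with
  | zero => intro φ hφ; exact hφ.nonpos NN.one
  | succ k ih =>
    intro φ hφ
    refine Finset.sum_nonpos fun a _ => mul_nonpos_of_nonneg_of_nonpos (hW a) (ih _ ?_)
    have := hφ.mulLeft (hV a)
    simpa only [mul_comm] using this

/-- Bounding the power of a mixture by finitely many atoms. -/
theorem Pw_le_powP {A : Type*} [Fintype A] {W : A → ℝ} {V : A → Vc}
    (hw : WProb w) (hc : ∀ x, WS (c x)) (hW : ∀ a, 0 ≤ W a) (hV : ∀ a, NN (V a))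
    (h : ∀ φ, IsPre φ → MF w c φ ≤ ∑ a, W a * φ (V a)) (k : ℕ) :
    ∀ φ, IsPre φ → Pw w c k φ ≤ powP W V k φ := by
  induction k with
  | zero =>
    intro φ _
    rw [Pw_zero hw hc]
    rfl
  | succ k ih =>
    intro φ hφ
    rw [Pw_succ hw hc hφ]
    have hpre : ∀ a, IsPre (fun y => φ (y * V a)) := fun a => by
      have := hφ.mulLeft (hV a)
      simpa only [mul_comm] using this
    -- linear combination of tests
    have hsum : IsPre (fun y => ∑ a, W a * φ (y * V a)) :=
      { hom := fun d y hd hy => by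
          rw [Finset.mul_sum]
          refine Finset.sum_congr rfl fun a _ => ?_
          rw [(hpre a).hom d y hd hy]
          ring
        sub := fun y z hy hz => by
          rw [← Finset.sum_add_distrib]
          refine Finset.sum_le_sum fun a _ => ?_
          have := mul_le_mul_of_nonneg_left ((hpre a).sub y z hy hz) (hW a)
          linarith
        vert := fun i => by
          refine Finset.sum_eq_zero fun a _ => ?_
          have : φ ((Pi.single i 1 : Vc) * V a) = 0 := (hpre a).vert i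
          rw [this, mul_zero] }
    refine (MF_mono (hw.pow k) (wPow_ws hc k) (MF_pre hw hc hφ) hsum fun y hy => ?_).trans ?_
    · have := h _ (hφ.mulLeft hy)
      exact this
    · -- exchange
      have e : MF (wPow w k) (tupS c k) (fun y => ∑ a, W a * φ (y * V a))
          = ∑ a, W a * Pw w c k (fun y => φ (y * V a)) := by
        unfold Pw MF
        have h1 : ∀ ts : Fin k → X, ∑ t, ∑ a, W a * φ (tupS c k ts t * V a)
            = ∑ a, W a * ∑ t, φ (tupS c k ts t * V a) := by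
          intro ts
          rw [Finset.sum_comm]
          simp only [Finset.mul_sum]
        rw [Ew_congr _ _ h1, Ew_finset_sum Finset.univ (hw.pow k)]
        · refine Finset.sum_congr rfl fun a _ => ?_
          exact Ew_const_mul _ _
        · intro a _
          exact (bdd_sum (wPow_ws hc k) (hpre a)).const_mul _
      rw [e]
      exact Finset.sum_le_sum fun a _ => mul_le_mul_of_nonneg_left (ih _ (hpre a)) (hW a)

end power

end Vale.Agent.Lib.P154P
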