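import Vale.Agent.Lib.P154P.Box
import Vale.Agent.Lib.P154.NegGW
import Vale.Agent.Lib.P154.NegReg

/-!
From the functional to the advantage on Galton-Watson trees, up to and including `λ = -1/2`.
-/

noncomputable section

open Finset Filter Topology

namespace Vale.Agent.Lib.P154P

open Vale.Agent.Lib.P154

theorem gwLik_continuous : ∀ (n : ℕ) (T : GWTree n) (i : Fin 3) (τ : GWSpins 3 n T),
    Continuous fun lam : ℝ => gwLik 3 lam n T i τ
  | 0, _, _, _ => continuous_const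
  | n + 1, T, i, τ => by
    have e : (fun lam : ℝ => gwLik 3 lam (n + 1) T i τ)
        = fun lam => ∏ c : Fin T.1, ∑ j : Fin 3, potts 3 lam i j * gwLik 3 lam n (T.2 c) j (τ c) := rfl
    rw [e]
    refine continuous_finsetProd _ fun c _ => continuous_finsetSum _ fun j _ => ?_
    exact (potts_continuous i j).mul (gwLik_continuous n (T.2 c) j (τ c))

/-- The advantage on a fixed tree as a continuous expression. -/
def gwAdvE (lam : ℝ) (n : ℕ) (T : GWTree n) : ℝ :=
  ∑ τ : GWSpins 3 n T, (1 / 2) * ∑ i : Fin 3, |(1 / 3) * gwLik 3 lam n T i τ - (1 / 3) * gwProb 3 lam n T τ|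

theorem gwAdvE_continuous (n : ℕ) (T : GWTree n) : Continuous fun lam : ℝ => gwAdvE lam n T := by
  unfold gwAdvE gwProb
  refine continuous_finsetSum _ fun τ _ => continuous_const.mul (continuous_finsetSum _ fun i _ => ?_)
  refine Continuous.abs ?_
  refine (continuous_const.mul (gwLik_continuous n T i τ)).sub (continuous_const.mul ?_)
  refine continuous_finsetSum _ fun j _ => continuous_const.mul (gwLik_continuous n T j τ)

theorem gwProb_eq (lam : ℝ) (n : ℕ) (T : GWTree n) (τ : GWSpins 3 n T) :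
    gwProb 3 lam n T τ = ∑ i : Fin 3, (1 / 3) * glev lam n T τ i := by
  unfold gwProb glev
  push_cast
  rfl

theorem gwTreeAdvantage_eq {lam : ℝ} (h0 : -(1 / 2) ≤ lam) (h1 : lam ≤ 1) (n : ℕ) (T : GWTree n) :
    gwTreeAdvantage 3 lam n T = gwAdvE lam n T := by
  unfold gwTreeAdvantage gwAdvE
  refine Finset.sum_congr rfl fun τ _ => ?_
  have hW := glev_ws h0 h1 n T
  have hl : ∀ i, 0 ≤ gwLik 3 lam n T i τ := fun i => hW.nonneg τ i
  have hP : gwProb 3 lam n T τ = ∑ i : Fin 3, (1 / 3) * gwLik 3 lam n T i τ := gwProb_eq lam n T τ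
  have hP0 : 0 ≤ gwProb 3 lam n T τ := by
    rw [hP]
    exact Finset.sum_nonneg fun i _ => mul_nonneg (by norm_num) (hl i)
  rw [mul_left_comm, Finset.mul_sum]
  congr 1
  refine Finset.sum_congr rfl fun i _ => ?_
  rcases hP0.eq_or_lt with hz | hpos
  · have hzero : ∀ j : Fin 3, gwLik 3 lam n T j τ = 0 := by
      intro j
      have h2 := hz
      rw [hP] at h2
      have := (Finset.sum_eq_zero_iff_of_nonneg
        (fun k _ => mul_nonneg (by norm_num : (0 : ℝ) ≤ 1 / 3) (hl k))).1 h2.symm j (Finset.mem_univ j)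
      linarith
    rw [← hz, hzero i]
    simp
  · unfold gwPost
    push_cast
    have e : (1 / 3) * gwLik 3 lam n T i τ - (1 / 3) * gwProb 3 lam n T τ
        = gwProb 3 lam n T τ * ((1 / 3) * gwLik 3 lam n T i τ / gwProb 3 lam n T τ - 1 / 3) := by
      field_simp
    rw [e, abs_mul, abs_of_pos hpos]

/-- The advantage on a fixed tree is at most one. -/
theorem gwAdvE_le {lam : ℝ} (h0 : -(1 / 2) ≤ lam) (h1 : lam ≤ 1) (n : ℕ) (T : GWTree n) :
    gwAdvE lam n T ≤ 1 := by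
  have hW := glev_ws h0 h1 n T
  unfold gwAdvE
  have hP0 : ∀ τ, 0 ≤ gwProb 3 lam n T τ := fun τ => by
    rw [gwProb_eq]
    exact Finset.sum_nonneg fun i _ => mul_nonneg (by norm_num) (hW.nonneg τ i)
  have hb : ∀ τ : GWSpins 3 n T, (1 / 2) * ∑ i : Fin 3, |(1 / 3) * gwLik 3 lam n T i τ - (1 / 3) * gwProb 3 lam n T τ|
      ≤ gwProb 3 lam n T τ := by
    intro τ
    have hb1 : ∀ i : Fin 3, |(1 / 3) * gwLik 3 lam n T i τ - (1 / 3) * gwProb 3 lam n T τ|
        ≤ (1 / 3) * gwLik 3 lam n T i τ + (1 / 3) * gwProb 3 lam n T τ := by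
      intro i
      have a1 : 0 ≤ (1 / 3) * gwLik 3 lam n T i τ := mul_nonneg (by norm_num) (hW.nonneg τ i)
      have a2 := hP0 τ
      rw [abs_le]
      constructor <;> linarith
    have hs := Finset.sum_le_sum fun i (_ : i ∈ (Finset.univ : Finset (Fin 3))) => hb1 i
    rw [Finset.sum_add_distrib] at hs
    have e : ∑ i : Fin 3, (1 / 3) * gwLik 3 lam n T i τ = gwProb 3 lam n T τ := (gwProb_eq lam n T τ).symm
    rw [e] at hs
    simp only [Finset.sum_const, Finset.card_univ, Fintype.card_fin, nsmul_eq_mul] at hs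
    push_cast at hs
    linarith
  have hs := Finset.sum_le_sum fun τ (_ : τ ∈ (Finset.univ : Finset (GWSpins 3 n T))) => hb τ
  refine hs.trans (le_of_eq ?_)
  simp only [gwProb_eq, Finset.sum_comm (s := (Finset.univ : Finset (GWSpins 3 n T)))]
  simp only [← Finset.mul_sum, hW.tot]
  norm_num

theorem gwAdvE_nonneg (lam : ℝ) (n : ℕ) (T : GWTree n) : 0 ≤ gwAdvE lam n T := by
  unfold gwAdvE
  exact Finset.sum_nonneg fun τ _ => mul_nonneg (by norm_num) (Finset.sum_nonneg fun i _ => abs_nonneg _)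

theorem gwAdvantage_eq {p : ℕ → ℝ} {lam : ℝ} (h0 : -(1 / 2) ≤ lam) (h1 : lam ≤ 1) (n : ℕ) :
    gwAdvantage p 3 lam n = ∑' T : GWTree n, gwWeight p n T * gwAdvE lam n T := by
  unfold gwAdvantage
  congr 1
  funext T
  rw [gwTreeAdvantage_eq h0 h1]

theorem bdd_gwAdvE {lam : ℝ} (h0 : -(1 / 2) ≤ lam) (h1 : lam ≤ 1) (n : ℕ) :
    BddF (fun T : GWTree n => gwAdvE lam n T) :=
  BddF.of_Icc (a := 0) (b := 1) fun T => ⟨gwAdvE_nonneg lam n T, gwAdvE_le h0 h1 n T⟩

/-- Each level is continuous in the eigenvalue. -/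
theorem gwAdvantage_tendsto_param {p : ℕ → ℝ} (hp : WProb p) (n : ℕ) :
    Tendsto (fun lam : ℝ => ∑' T : GWTree n, gwWeight p n T * gwAdvE lam n T)
      (nhdsWithin (-(1 / 2) : ℝ) (Set.Ioo (-(1 / 2)) 0)) (𝓝 (∑' T : GWTree n, gwWeight p n T * gwAdvE (-(1 / 2)) n T)) := by
  have hw := gwWeight_wprob hp n
  refine tendsto_tsum_of_dominated_convergence (bound := fun T => gwWeight p n T * 1)
    (hw.hasSum.summable.mul_right 1) (fun T => ?_) ?_
  · refine Tendsto.const_mul _ ?_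
    exact ((gwAdvE_continuous n T).tendsto (-(1 / 2))).mono_left nhdsWithin_le_nhds
  · filter_upwards [self_mem_nhdsWithin] with lam hlam T
    have h0 : -(1 / 2) ≤ lam := hlam.1.le
    have h1 : lam ≤ 1 := by linarith [hlam.2]
    rw [Real.norm_eq_abs, abs_mul, abs_of_nonneg (hw.nonneg T), abs_of_nonneg (gwAdvE_nonneg lam n T)]
    exact mul_le_mul_of_nonneg_left (gwAdvE_le h0 h1 n T) (hw.nonneg T)

/-- Passing to the limit `λ = -1/2` on Galton-Watson trees. -/
theorem gw_neg_half {p : ℕ → ℝ} (hp : WProb p) {B : ℕ → ℝ} (hB : Tendsto B atTop (𝓝 0))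
    (h : ∀ μ : ℝ, 0 < μ → μ < 1 / 2 → ∀ n, Xbar p (-μ) n ≤ B n) :
    (∀ n, Summable (fun T : GWTree n => gwWeight p n T * gwTreeAdvantage 3 (-(1 / 2)) n T))
      ∧ Tendsto (gwAdvantage p 3 (-(1 / 2))) atTop (𝓝 0) := by
  have h00 : (-(1 / 2) : ℝ) ≤ -(1 / 2) := le_rfl
  have h01 : (-(1 / 2) : ℝ) ≤ 1 := by norm_num
  constructor
  · intro n
    have hw := gwWeight_wprob hp n
    refine (hw.summable_mul (bdd_gwAdvE h00 h01 n)).congr fun T => ?_
    rw [gwTreeAdvantage_eq h00 h01]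
  have key : ∀ (n : ℕ) (δ : ℝ), 0 < δ → gwAdvantage p 3 (-(1 / 2)) n ≤ 3 * δ / 4 + B n / (4 * δ) := by
    intro n δ hδ
    rw [gwAdvantage_eq h00 h01]
    have hev : ∀ᶠ lam in nhdsWithin (-(1 / 2) : ℝ) (Set.Ioo (-(1 / 2)) 0),
        ∑' T : GWTree n, gwWeight p n T * gwAdvE lam n T ≤ 3 * δ / 4 + B n / (4 * δ) := by
      filter_upwards [self_mem_nhdsWithin] with lam hlam
      have hμ0 : 0 < -lam := by linarith [hlam.2]
      have hμ1 : -lam < 1 / 2 := by linarith [hlam.1]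
      have e := gwAdvantage_eq (p := p) hlam.1.le (by linarith [hlam.2] : lam ≤ 1) n
      rw [← e]
      have h1 := gwAdvantage_le' hp hlam.1 (by linarith [hlam.2]) n δ hδ
      have h2 := h (-lam) hμ0 hμ1 n
      rw [neg_neg] at h2
      have h3 : Xbar p lam n / (4 * δ) ≤ B n / (4 * δ) :=
        div_le_div_of_nonneg_right h2 (by positivity)
      linarith
    have hne : (nhdsWithin (-(1 / 2) : ℝ) (Set.Ioo (-(1 / 2)) 0)).NeBot :=
      (mem_closure_iff_nhdsWithin_neBot.1 (by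
        rw [closure_Ioo (by norm_num)]
        constructor <;> norm_num))
    exact le_of_tendsto (gwAdvantage_tendsto_param hp n) hev
  have hnn : ∀ n, 0 ≤ gwAdvantage p 3 (-(1 / 2)) n := by
    intro n
    rw [gwAdvantage_eq h00 h01]
    exact tsum_nonneg fun T => mul_nonneg ((gwWeight_wprob hp n).nonneg T) (gwAdvE_nonneg _ n T)
  rw [Metric.tendsto_atTop]
  intro ε hε
  have hev := (tendsto_order.1 hB).2 (ε ^ 2) (by positivity)
  obtain ⟨N, hN⟩ := Filter.eventually_atTop.1 hev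
  refine ⟨N, fun n hn => ?_⟩
  have h1 := key n (ε / 2) (by positivity)
  have h4 := hN n hn
  have h5 : B n / (4 * (ε / 2)) < ε / 2 := by
    rw [div_lt_iff₀ (by positivity)]
    nlinarith
  rw [Real.dist_eq, sub_zero, abs_of_nonneg (hnn n)]
  nlinarith

/-- The eigenvalue range `(-1/2, 0)` and its end point from one uniform bound on the functional. -/
theorem gw_neg_of_bound {p : ℕ → ℝ} (hp : WProb p) {B : ℕ → ℝ} (hB : Tendsto B atTop (𝓝 0)) {μ : ℝ}
    (h0 : 0 < μ) (h1 : μ ≤ 1 / 2) (h : ∀ ν : ℝ, 0 < ν → ν ≤ μ → ν < 1 / 2 → ∀ n, Xbar p (-ν) n ≤ B n)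
    (hpm : μ = 1 / 2 → ∀ ν : ℝ, 0 < ν → ν < 1 / 2 → ∀ n, Xbar p (-ν) n ≤ B n) :
    (∀ n, Summable (fun T : GWTree n => gwWeight p n T * gwTreeAdvantage 3 (-μ) n T))
      ∧ Tendsto (gwAdvantage p 3 (-μ)) atTop (𝓝 0) := by
  rcases h1.eq_or_lt with e | hlt
  · subst e
    exact gw_neg_half hp hB (hpm rfl)
  · refine gwAdvantage_of_Xbar hp (by linarith) (by linarith) ?_
    have hnn := fun n => Xbar_nonneg hp h0 hlt n
    exact tendsto_of_tendsto_of_tendsto_of_le_of_le tendsto_const_nhds hB hnn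
      fun n => h μ h0 le_rfl hlt n

end Vale.Agent.Lib.P154P
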