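import Vale.Agent.Lib.P154.Means

/-!
Test functions for the Blackwell order on signals with three root states.
-/

noncomputable section

open Finset

namespace Vale.Agent.Lib.P154P

open Vale.Agent.Lib.P154

/-- Vectors of likelihoods. -/
abbrev Vc := Fin 3 → ℝ

/-- Coordinatewise nonnegative vectors. -/
def NN (v : Vc) : Prop := ∀ i, 0 ≤ v i

theorem NN.mul {v w : Vc} (hv : NN v) (hw : NN w) : NN (v * w) := fun i => mul_nonneg (hv i) (hw i)

theorem NN.add {v w : Vc} (hv : NN v) (hw : NN w) : NN (v + w) := fun i => add_nonneg (hv i) (hw i)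

theorem NN.smul {v : Vc} {c : ℝ} (hc : 0 ≤ c) (hv : NN v) : NN (c • v) := fun i => mul_nonneg hc (hv i)

theorem NN.one : NN (1 : Vc) := fun _ => zero_le_one

theorem NN.zero : NN (0 : Vc) := fun _ => le_rfl

theorem NN.comp {v : Vc} (hv : NN v) (σ : Equiv.Perm (Fin 3)) : NN (v ∘ σ) := fun i => hv (σ i)

theorem NN.sum {ι : Type*} (s : Finset ι) {f : ι → Vc} (h : ∀ t ∈ s, NN (f t)) : NN (∑ t ∈ s, f t) := by
  intro i
  rw [Finset.sum_apply]
  exact Finset.sum_nonneg fun t ht => h t ht i

/-- Test functions: homogeneous, subadditive on the orthant, zero on the three unit vectors. -/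
structure IsPre (φ : Vc → ℝ) : Prop where
  hom : ∀ (c : ℝ) (v : Vc), 0 ≤ c → NN v → φ (c • v) = c * φ v
  sub : ∀ v w : Vc, NN v → NN w → φ (v + w) ≤ φ v + φ w
  vert : ∀ i : Fin 3, φ (Pi.single i 1) = 0

namespace IsPre

variable {φ : Vc → ℝ}

theorem zero (h : IsPre φ) : φ 0 = 0 := by
  have := h.hom 0 0 le_rfl NN.zero
  simpa using this

theorem sum_le (h : IsPre φ) {ι : Type*} (s : Finset ι) {f : ι → Vc} (hf : ∀ t ∈ s, NN (f t)) :
    φ (∑ t ∈ s, f t) ≤ ∑ t ∈ s, φ (f t) := by
  classical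
  induction s using Finset.induction_on with
  | empty => simpa using (h.zero).le
  | insert a s ha ih =>
    rw [Finset.sum_insert ha, Finset.sum_insert ha]
    have h1 : NN (f a) := hf a (Finset.mem_insert_self _ _)
    have h2 : ∀ t ∈ s, NN (f t) := fun t ht => hf t (Finset.mem_insert_of_mem ht)
    exact (h.sub _ _ h1 (NN.sum s h2)).trans (add_le_add_right (ih h2) _)

theorem vec_eq (v : Vc) : v = ∑ i : Fin 3, v i • (Pi.single i 1 : Vc) := by
  funext j
  rw [Finset.sum_apply]
  simp [Pi.single_apply]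

theorem single_nn (i : Fin 3) : NN (Pi.single i 1 : Vc) := by
  intro j
  by_cases hj : j = i
  · subst hj; simp
  · simp [Pi.single_apply, hj]

theorem nonpos (h : IsPre φ) {v : Vc} (hv : NN v) : φ v ≤ 0 := by
  have e := vec_eq v
  have h1 := h.sum_le (Finset.univ : Finset (Fin 3)) (f := fun i => v i • (Pi.single i 1 : Vc))
    (fun i _ => NN.smul (hv i) (single_nn i))
  rw [← e] at h1
  refine h1.trans (le_of_eq ?_)
  refine Finset.sum_eq_zero fun i _ => ?_
  rw [h.hom _ _ (hv i) (single_nn i), h.vert, mul_zero]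

/-- Splitting an atom onto nodes: dropping the remainder is sound. -/
theorem split {ι : Type*} (h : IsPre φ) (s : Finset ι) (β : ι → ℝ) (V : ι → Vc) (x : Vc)
    (hβ : ∀ j ∈ s, 0 ≤ β j) (hV : ∀ j ∈ s, NN (V j)) (hx : NN (x - ∑ j ∈ s, β j • V j)) :
    φ x ≤ ∑ j ∈ s, β j * φ (V j) := by
  have e : x = (x - ∑ j ∈ s, β j • V j) + ∑ j ∈ s, β j • V j := by abel
  have hS : NN (∑ j ∈ s, β j • V j) := NN.sum s fun j hj => NN.smul (hβ j hj) (hV j hj)
  have h1 := h.sub _ _ hx hS
  rw [← e] at h1
  have h2 := h.nonpos hx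
  have h3 := h.sum_le s (f := fun j => β j • V j) fun j hj => NN.smul (hβ j hj) (hV j hj)
  have h4 : ∑ j ∈ s, φ (β j • V j) = ∑ j ∈ s, β j * φ (V j) :=
    Finset.sum_congr rfl fun j hj => h.hom _ _ (hβ j hj) (hV j hj)
  rw [h4] at h3
  linarith

/-- Multiplication by a fixed nonnegative vector keeps the class. -/
theorem mulLeft (h : IsPre φ) {x : Vc} (hx : NN x) : IsPre (fun v => φ (x * v)) where
  hom := fun c v hc hv => by
    have : x * (c • v) = c • (x * v) := by
      funext i; simp only [Pi.mul_apply, Pi.smul_apply, smul_eq_mul]; ring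
    rw [this, h.hom _ _ hc (hx.mul hv)]
  sub := fun v w hv hw => by
    have : x * (v + w) = x * v + x * w := by ring
    rw [this]
    exact h.sub _ _ (hx.mul hv) (hx.mul hw)
  vert := fun i => by
    have : x * (Pi.single i 1 : Vc) = x i • (Pi.single i 1 : Vc) := by
      funext j
      by_cases hj : j = i
      · subst hj; simp
      · simp [Pi.single_apply, hj]
    rw [this, h.hom _ _ (hx i) (single_nn i), h.vert, mul_zero]

/-- Precomposition with a permutation of the coordinates. -/
theorem comp (h : IsPre φ) (σ : Equiv.Perm (Fin 3)) : IsPre (fun v => φ (v ∘ σ)) where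
  hom := fun c v hc hv => by
    have : (c • v) ∘ σ = c • (v ∘ σ) := by
      funext i; simp
    rw [this, h.hom _ _ hc (hv.comp σ)]
  sub := fun v w hv hw => by
    have : (v + w) ∘ σ = v ∘ σ + w ∘ σ := by
      funext i; simp
    rw [this]
    exact h.sub _ _ (hv.comp σ) (hw.comp σ)
  vert := fun i => by
    have : (Pi.single i 1 : Vc) ∘ σ = (Pi.single (σ.symm i) 1 : Vc) := by
      funext j
      simp only [Function.comp, Pi.single_apply, Equiv.eq_symm_apply]
    rw [this, h.vert]

end IsPre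

/-- A likelihood family for a root with three states, with relabelling symmetry. -/
structure WS {ι : Type*} [Fintype ι] (l : ι → Vc) : Prop where
  nonneg : ∀ t, NN (l t)
  tot : ∀ i, ∑ t, l t i = 1
  sym : ∀ σ : Equiv.Perm (Fin 3), ∃ π : Equiv.Perm ι, ∀ t, l (π t) = l t ∘ σ

namespace WS

variable {ι : Type*} [Fintype ι] {l : ι → Vc} {φ : Vc → ℝ}

theorem sum_vec (h : WS l) : ∑ t, l t = 1 := by
  funext i
  rw [Finset.sum_apply]
  exact h.tot i

/-- A family refines its total. -/
theorem lower (h : WS l) (hφ : IsPre φ) {x : Vc} (hx : NN x) : φ x ≤ ∑ t, φ (x * l t) := by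
  have := hφ.sum_le (Finset.univ : Finset ι) (f := fun t => x * l t) fun t _ => hx.mul (h.nonneg t)
  have e : ∑ t, x * l t = x := by
    rw [← Finset.mul_sum, h.sum_vec, mul_one]
  rwa [e] at this

theorem upper (h : WS l) (hφ : IsPre φ) {x : Vc} (hx : NN x) : ∑ t, φ (x * l t) ≤ 0 :=
  Finset.sum_nonpos fun t _ => hφ.nonpos (hx.mul (h.nonneg t))

theorem lower1 (h : WS l) (hφ : IsPre φ) : φ 1 ≤ ∑ t, φ (l t) := by
  have := h.lower hφ NN.one
  simpa using this

theorem upper1 (h : WS l) (hφ : IsPre φ) : ∑ t, φ (l t) ≤ 0 :=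
  Finset.sum_nonpos fun t _ => hφ.nonpos (h.nonneg t)

/-- Integration of a test function over a family. -/
theorem pre (h : WS l) (hφ : IsPre φ) : IsPre (fun x => ∑ t, φ (x * l t)) where
  hom := fun c v hc hv => by
    rw [Finset.mul_sum]
    refine Finset.sum_congr rfl fun t _ => ?_
    have : c • v * l t = c • (v * l t) := by
      funext i; simp only [Pi.mul_apply, Pi.smul_apply, smul_eq_mul]; ring
    rw [this, hφ.hom _ _ hc (hv.mul (h.nonneg t))]
  sub := fun v w hv hw => by
    rw [← Finset.sum_add_distrib]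
    refine Finset.sum_le_sum fun t _ => ?_
    have : (v + w) * l t = v * l t + w * l t := by ring
    rw [this]
    exact hφ.sub _ _ (hv.mul (h.nonneg t)) (hw.mul (h.nonneg t))
  vert := fun i => by
    refine Finset.sum_eq_zero fun t _ => ?_
    exact (hφ.mulLeft (h.nonneg t)).vert i |> fun e => by rw [mul_comm]; exact e

/-- The relabelling symmetry under a sum. -/
theorem sum_comp (h : WS l) (σ : Equiv.Perm (Fin 3)) (g : Vc → ℝ) :
    ∑ t, g (l t ∘ σ) = ∑ t, g (l t) := by
  obtain ⟨π, hπ⟩ := h.sym σ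
  rw [← Equiv.sum_comp π (fun t => g (l t))]
  exact Finset.sum_congr rfl fun t _ => by rw [hπ]

end WS

end Vale.Agent.Lib.P154P
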