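import Vale.Agent.Lib.P154P.Bridge
import Vale.Agent.Lib.P154B.Run

/-!
The Galton-Watson levels as a sequence which the phases of a table can follow.
-/

noncomputable section

open Finset

namespace Vale.Agent.Lib.P154P

open Vale.Agent.Lib.P154 Vale.Agent.Lib.P154B

/-- The Horner evaluation of a list of digits as a sum of powers. -/
theorem hornerFn_eq_sum {B : (Vec → ℝ) → ℝ} (hB : IsFun B) (P : ℕ) (qs : List ℕ) :
    ∀ ψ, IsTest ψ → hornerFn B P qs ψ = ∑ k ∈ Finset.range qs.length, ((qs.getD k 0 : ℕ) : ℝ) / 2 ^ P * powF B k ψ := by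
  induction qs with
  | nil =>
    intro ψ _
    simp [hornerFn]
  | cons q qs ih =>
    intro ψ hψ
    have hout := outer_isTest hB hψ
    change unitF ((q : ℝ) / 2 ^ P) ψ + tens (hornerFn B P qs) B ψ = _
    unfold tens
    rw [ih _ hout, List.length_cons, Finset.sum_range_succ']
    have e0 : ((q :: qs).getD 0 0 : ℕ) = q := rfl
    rw [e0, add_comm]
    have h1 : unitF ((q : ℝ) / 2 ^ P) ψ = (q : ℝ) / 2 ^ P * powF B 0 ψ := by
      change unitF _ ψ = _ * unitF 1 ψ
      unfold unitF
      ring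
    rw [h1]
    congr 1

/-- The levels of a Galton-Watson tree as a sequence for the tables. -/
theorem funSeq_gw {p : ℕ → ℝ} (hp : WProb p) {μ : ℝ} (h0 : 0 ≤ μ) (h1 : μ ≤ 1 / 2) {P : ℕ} {qs : List ℕ}
    (hq : ∀ k, ((qs.getD k 0 : ℕ) : ℝ) / 2 ^ P ≤ p k) :
    FunSeq (fun n => gwFun p (-μ) n) μ P qs where
  h0 := h0
  isFun := fun n => isFun_gwFun hp h0 h1 n
  lin := fun n => gwFun_lin hp h0 h1 n
  step := fun n ψ hψ => by
    rw [hornerFn_eq_sum (isFun_child hp h0 h1 n) P qs ψ hψ]
    exact gwFun_succ_le hp h0 h1 n (fun k => ((qs.getD k 0 : ℕ) : ℝ) / 2 ^ P) qs.length hq hψ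
  start := fun ψ hψ => le_of_eq (gwFun_zero hp hψ _)

/-- An upper bound of the exponential of a positive number by its Taylor polynomial of degree twelve, after
division by sixteen. -/
theorem exp_le_of {x U : ℝ} (h0 : 0 ≤ x) (h1 : x ≤ 1) (h : ∑ m ∈ Finset.range 12, x ^ m / m.factorial
      + x ^ 12 * (12 + 1) / (Nat.factorial 12 * 12) ≤ U) : Real.exp x ≤ U :=
  (Real.exp_bound' h0 h1 (by norm_num)).trans h

/-- A lower bound for the weight at zero of a Poisson law with rational mean. -/
theorem poisson_zero_lb {d x U : ℝ} {n : ℕ} (hx : d = n * x) (hU : Real.exp x ≤ U) :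
    1 / U ^ n ≤ Real.exp (-d) := by
  rw [hx, Real.exp_neg, ← one_div, mul_comm, Real.exp_mul]
  rw [Real.rpow_natCast]
  apply one_div_le_one_div_of_le (pow_pos (Real.exp_pos _) n)
  exact pow_le_pow_left₀ (Real.exp_pos _).le hU n

/-- The check of a list of digits against a Poisson law `d = a / c`, with `1 / (E / F)` a lower bound of `exp (-d)`. -/
def poiChk (P a c F E : ℕ) : ℕ → ℕ → List ℕ → Bool
  | _, _, [] => true
  | k, fac, q :: qs =>
    Nat.ble (q * (c ^ k * fac * E)) (F * a ^ k * 2 ^ P) && poiChk P a c F E (k + 1) (fac * (k + 1)) qs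

/-- Digits below the Poisson weights. -/
theorem poiChk_sound {P a c F E : ℕ} (hc : 0 < c) (hF : 0 < F) (hE : 0 < E) {ex : ℝ}
    (hex : (F : ℝ) / E ≤ ex) : ∀ (qs : List ℕ) (k j : ℕ), poiChk P a c F E k (k.factorial) qs = true →
      ((qs.getD j 0 : ℕ) : ℝ) / 2 ^ P ≤ ex * ((a : ℝ) / c) ^ (k + j) / (k + j).factorial := by
  intro qs
  induction qs with
  | nil =>
    intro k j _
    simp only [List.getD_nil, Nat.cast_zero, zero_div]
    have hex0 : 0 ≤ ex := le_trans (by positivity) hex
    positivity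
  | cons q qs ih =>
    intro k j h
    unfold poiChk at h
    simp only [Bool.and_eq_true] at h
    obtain ⟨h1, h2⟩ := h
    have hfac : k.factorial * (k + 1) = (k + 1).factorial := by
      rw [Nat.factorial_succ]
      ring
    rw [hfac] at h2
    cases j with
    | succ j =>
      have := ih (k + 1) j h2
      have e : k + 1 + j = k + (j + 1) := by ring
      rw [e] at this
      simpa [List.getD] using this
    | zero =>
      have h3 := Nat.le_of_ble_eq_true h1
      have h4 : ((q * (c ^ k * k.factorial * E) : ℕ) : ℝ) ≤ ((F * a ^ k * 2 ^ P : ℕ) : ℝ) := by exact_mod_cast h3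
      push_cast at h4
      have hcR : (0 : ℝ) < c := by exact_mod_cast hc
      have hER : (0 : ℝ) < E := by exact_mod_cast hE
      have hFR : (0 : ℝ) < F := by exact_mod_cast hF
      have hfacR : (0 : ℝ) < k.factorial := by exact_mod_cast k.factorial_pos
      have e0 : ((q :: qs).getD 0 0 : ℕ) = q := rfl
      rw [e0]
      simp only [add_zero]
      have hp : (0 : ℝ) < 2 ^ P := by positivity
      have hak : (0 : ℝ) ≤ ((a : ℝ) / c) ^ k := by positivity
      have hstep : (q : ℝ) / 2 ^ P ≤ ((F : ℝ) / E) * ((a : ℝ) / c) ^ k / k.factorial := by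
        rw [div_pow, div_le_iff₀ hp]
        have e : ((F : ℝ) / E) * ((a : ℝ) ^ k / (c : ℝ) ^ k) / k.factorial * 2 ^ P
            = (F * (a : ℝ) ^ k * 2 ^ P) / ((c : ℝ) ^ k * k.factorial * E) := by
          field_simp
        rw [e, le_div_iff₀ (by positivity)]
        exact h4
      refine hstep.trans ?_
      have := mul_le_mul_of_nonneg_right hex hak
      exact div_le_div_of_nonneg_right this hfacR.le

/-- Digits below the weights of a Poisson law. -/
theorem poi_digits {P a c F E : ℕ} (hc : 0 < c) (hF : 0 < F) (hE : 0 < E) (hex : (F : ℝ) / E ≤ Real.exp (-((a : ℝ) / c)))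
    {qs : List ℕ} (h : poiChk P a c F E 0 1 qs = true) (k : ℕ) :
    ((qs.getD k 0 : ℕ) : ℝ) / 2 ^ P ≤ poissonLaw ((a : ℝ) / c) k := by
  have := poiChk_sound (P := P) hc hF hE hex qs 0 k (by simpa using h)
  rw [zero_add] at this
  exact this

end Vale.Agent.Lib.P154P
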