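import Vale.Agent.Lib.P154P.Seq
import Vale.Agent.Lib.P154B.Final
import Vale.Agent.Lib.P154.MellinEx

/-!
The tail of the largest coordinate of the normalised likelihood vector, as a test function for the tables.
-/

noncomputable section

open Finset

namespace Vale.Agent.Lib.P154P

open Vale.Agent.Lib.P154 Vale.Agent.Lib.P154B Vale.Agent.Lib.P154.Mellin

/-- The largest coordinate. -/
def vmax (x : Vc) : ℝ := max (x 0) (max (x 1) (x 2))

/-- The tail of the largest coordinate above the level `A`, on the simplex with coordinates of mean one. -/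
def tailT (A : ℝ) (a : Vc) : ℝ := max (vmax a - A) 0

/-- The tail as a homogeneous function which vanishes at the vertices. -/
def tailPhi (A : ℝ) (x : Vec) : ℝ := max (vmax x - A / 3 * Lin x) 0 - (1 - A / 3) * Lin x

theorem le_vmax (x : Vc) (i : Fin 3) : x i ≤ vmax x := by
  unfold vmax
  fin_cases i
  · exact le_max_left _ _
  · exact (le_max_left _ _).trans (le_max_right _ _)
  · exact (le_max_right _ _).trans (le_max_right _ _)

theorem vmax_le {x : Vc} {b : ℝ} (h : ∀ i, x i ≤ b) : vmax x ≤ b := by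
  unfold vmax
  exact max_le (h 0) (max_le (h 1) (h 2))

theorem vmax_add (x y : Vc) : vmax (x + y) ≤ vmax x + vmax y :=
  vmax_le fun i => add_le_add (le_vmax x i) (le_vmax y i)

theorem vmax_smul {c : ℝ} (hc : 0 ≤ c) (x : Vc) : vmax (c • x) = c * vmax x := by
  unfold vmax
  simp only [Pi.smul_apply, smul_eq_mul]
  rw [mul_max_of_nonneg _ _ hc, mul_max_of_nonneg _ _ hc]

theorem vmax_comp (x : Vc) (σ : Equiv.Perm (Fin 3)) : vmax (x ∘ σ) = vmax x := by
  refine le_antisymm (vmax_le fun i => le_vmax x (σ i)) (vmax_le fun i => ?_)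
  have := le_vmax (x ∘ σ) (σ.symm i)
  simpa using this

theorem tailPhi_isTest {A : ℝ} (hA : A ≤ 3) : IsTest (tailPhi A) where
  sub := fun x y _ _ => by
    unfold tailPhi
    have hL : Lin (x + y) = Lin x + Lin y := by
      unfold Lin
      simp only [Pi.add_apply]
      ring
    rw [hL]
    have h1 := vmax_add x y
    have h2 : max (vmax (x + y) - A / 3 * (Lin x + Lin y)) 0
        ≤ max (vmax x - A / 3 * Lin x) 0 + max (vmax y - A / 3 * Lin y) 0 := by
      refine max_le ?_ (add_nonneg (le_max_right _ _) (le_max_right _ _))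
      have h3 := le_max_left (vmax x - A / 3 * Lin x) 0
      have h4 := le_max_left (vmax y - A / 3 * Lin y) 0
      nlinarith
    nlinarith
  hom := fun c x hc _ => by
    unfold tailPhi
    rw [vmax_smul hc]
    have hL : Lin (c • x) = c * Lin x := by
      unfold Lin
      simp only [Pi.smul_apply, smul_eq_mul]
      ring
    rw [hL]
    have e : c * vmax x - A / 3 * (c * Lin x) = c * (vmax x - A / 3 * Lin x) := by ring
    rw [e]
    have e2 : max (c * (vmax x - A / 3 * Lin x)) 0 = c * max (vmax x - A / 3 * Lin x) 0 := by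
      rw [mul_max_of_nonneg _ _ hc, mul_zero]
    rw [e2]
    ring
  perm := fun σ x _ => by
    unfold tailPhi
    rw [vmax_comp, Lin_comp]
  vert := by
    have h2 : (![1, 0, 0] : Vec) 2 = 0 := rfl
    have h3 : vmax (![1, 0, 0] : Vec) = 1 := by
      unfold vmax
      simp only [Matrix.cons_val_zero, Matrix.cons_val_one, h2]
      norm_num
    have h4 : Lin (![1, 0, 0] : Vec) = 1 := by
      unfold Lin
      simp only [Matrix.cons_val_zero, Matrix.cons_val_one, h2]
      norm_num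
    unfold tailPhi
    rw [h3, h4, max_eq_left (by linarith)]
    ring

theorem NV_mul_tailT (A : ℝ) {v : Vc} (hv : NN v) : NV v * tailT A (nrm v) = max (vmax v - A / 3 * Lin v) 0 := by
  rcases (NV_nonneg hv).eq_or_lt with h | h
  · have hz := eq_zero_of_NV hv h.symm
    rw [← h, hz]
    have e1 : vmax (0 : Vc) = 0 := by
      unfold vmax
      simp
    have e2 : Lin (0 : Vec) = 0 := by
      unfold Lin
      simp
    rw [e1, e2]
    simp
  · unfold tailT
    rw [mul_max_of_nonneg _ _ h.le, mul_zero, mul_sub]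
    have e1 : NV v * vmax (nrm v) = vmax v := by
      rw [← vmax_smul h.le, smul_nrm h.ne']
    rw [e1]
    have e2 : NV v * A = A / 3 * Lin v := by
      unfold NV Lin
      ring
    rw [e2]

theorem sigFun_tailPhi {ι : Type*} [Fintype ι] (A : ℝ) {l : ι → Vc} (hl : WS l) :
    sigFun l (tailPhi A) = EF (tailT A) l - (3 - A) := by
  have hs := ssig_of_ws hl
  have e : ∀ t, tailPhi A (l t) = NV (l t) * tailT A (nrm (l t)) - (1 - A / 3) * Lin (l t) := fun t => by
    rw [NV_mul_tailT A (hl.nonneg t)]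
    rfl
  unfold sigFun EF
  simp only [e]
  rw [Finset.sum_sub_distrib, ← Finset.mul_sum]
  have := sigFun_lin hs
  unfold sigFun at this
  rw [this]
  ring

/-- The mean of the tail in terms of the test function. -/
theorem gwFun_tailPhi {p : ℕ → ℝ} (hp : WProb p) {μ : ℝ} (h0 : 0 ≤ μ) (h1 : μ ≤ 1 / 2) {A : ℝ} (hA : A ≤ 3) (n : ℕ) :
    Ex p (-μ) n (tailT A) = gwFun p (-μ) n (tailPhi A) + (3 - A) := by
  have hb := bdd_sigFun hp h0 h1 n (tailPhi_isTest hA).adm
  unfold gwFun at hb ⊢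
  unfold Ex
  rw [← Ew_const (gwWeight_wprob hp n) (3 - A)]
  rw [Ew_const (gwWeight_wprob hp n) (3 - A)]
  have hc : BddF (fun _ : GWTree n => (3 - A : ℝ)) := ⟨|3 - A|, fun _ => le_rfl⟩
  have e := Ew_add (gwWeight_wprob hp n) hb hc
  rw [Ew_const (gwWeight_wprob hp n) (3 - A)] at e
  rw [← e]
  refine Ew_congr _ _ fun T => ?_
  rw [sigFun_tailPhi A (glev_ws (lam := -μ) (by linarith) (by linarith) n T)]
  ring

/-- A bound of the test at one level of a larger tree gives the bound of the tail for all later levels. -/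
theorem Ex_tail_le {p p' : ℕ → ℝ} (hp : WProb p) (hp' : WProb p') (hst : StochLE p p') {μ μ' : ℝ} (h0 : 0 ≤ μ)
    (hμ : μ ≤ μ') (h0' : 0 < μ') (h1 : μ' ≤ 1 / 2) {A : ℝ} (hA : A ≤ 3) {N n : ℕ} (hn : N ≤ n) {C : ℝ}
    (hC : gwFun p' (-μ') N (tailPhi A) ≤ C) : Ex p (-μ) n (tailT A) ≤ C + (3 - A) := by
  have hm : μ ≤ 1 / 2 := hμ.trans h1
  have ht := tailPhi_isTest hA
  rw [gwFun_tailPhi hp h0 hm hA]
  have h2 := gwFun_level_le hp h0 hm hn _ ht
  have h3 := gwFun_box hp hp' hst h0 hμ h0' h1 N _ ht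
  linarith

theorem bdd_tailT (A : ℝ) : BddS (tailT A) := by
  refine BddS.of_Icc (l := 0) (u := max (3 - A) 0) fun a ha => ?_
  refine ⟨le_max_right _ _, ?_⟩
  unfold tailT
  refine max_le_max_right 0 ?_
  have : vmax a ≤ 3 := vmax_le fun i => (entry_bound ha i).2
  linarith

/-! ### A computable bound for the test on rational vectors -/

/-- The smaller of two numbers. -/
def minN (a b : ℕ) : ℕ := bif Nat.ble a b then a else b

theorem minN_le_left (a b : ℕ) : minN a b ≤ a := by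
  unfold minN
  cases h : Nat.ble a b with
  | true => exact le_rfl
  | false =>
    have : ¬ a ≤ b := fun h' => by
      rw [Nat.ble_eq_true_of_le h'] at h
      exact absurd h (by simp)
    simp only [cond_false]
    omega

theorem minN_le_right (a b : ℕ) : minN a b ≤ b := by
  unfold minN
  cases h : Nat.ble a b with
  | true => exact Nat.le_of_ble_eq_true h
  | false => exact le_rfl

/-- The bound of the test on a rational vector, `k / m` the mass at the vertex. -/
def tailA (k m : ℕ) (X : Trip) (D : ℕ) : ℕ :=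
  minN (sumT X * k * 2 ^ 40 / (m * D))
    (minN (X.2.1 + X.2.2) (minN (X.1 + X.2.2) (X.1 + X.2.1)) * 2 ^ 40 / D)

theorem tailA_bd {A : ℝ} {k m : ℕ} (hm : 0 < m) (hA : 1 - A / 3 = (k : ℝ) / m) : TestBd (tailPhi A) 40 (tailA k m) := by
  intro X D hD
  have hDR : (0 : ℝ) < D := by exact_mod_cast hD
  have hmR : (0 : ℝ) < m := by exact_mod_cast hm
  set a := tailA k m X D with ha
  have h1 : a ≤ sumT X * k * 2 ^ 40 / (m * D) := minN_le_left _ _
  have h2 : a ≤ minN (X.2.1 + X.2.2) (minN (X.1 + X.2.2) (X.1 + X.2.1)) * 2 ^ 40 / D := minN_le_right _ _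
  have hdiv : ∀ u v : ℕ, 0 < v → a ≤ u / v → (a : ℝ) * v ≤ u := by
    intro u v hv h
    have h3 := Nat.le_div_iff_mul_le hv |>.1 h
    exact_mod_cast h3
  have h1R := hdiv _ _ (Nat.mul_pos hm hD) h1
  have h2R := hdiv _ _ hD h2
  have hmono : ∀ u : ℕ, minN (X.2.1 + X.2.2) (minN (X.1 + X.2.2) (X.1 + X.2.1)) ≤ u
      → ∀ w : ℝ, (u : ℝ) ≤ w → (a : ℝ) * D ≤ w * 2 ^ 40 := by
    intro u hu w hw
    have h3 : ((minN (X.2.1 + X.2.2) (minN (X.1 + X.2.2) (X.1 + X.2.1)) : ℕ) : ℝ) ≤ u := by exact_mod_cast hu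
    push_cast at h2R
    nlinarith
  have hA1 := hmono (X.2.1 + X.2.2) (minN_le_left _ _) ((X.2.1 : ℝ) + X.2.2) (by push_cast; exact le_rfl)
  have hA2 := hmono (X.1 + X.2.2) ((minN_le_right _ _).trans (minN_le_left _ _)) ((X.1 : ℝ) + X.2.2)
    (by push_cast; exact le_rfl)
  have hA3 := hmono (X.1 + X.2.1) ((minN_le_right _ _).trans (minN_le_right _ _)) ((X.1 : ℝ) + X.2.1)
    (by push_cast; exact le_rfl)
  have hx0 : (vecOf X (D : ℝ)) 0 = (X.1 : ℝ) / D := rfl
  have hx1 : (vecOf X (D : ℝ)) 1 = (X.2.1 : ℝ) / D := rfl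
  have hx2 : (vecOf X (D : ℝ)) 2 = (X.2.2 : ℝ) / D := rfl
  have hL : Lin (vecOf X (D : ℝ)) = ((X.1 : ℝ) + X.2.1 + X.2.2) / D := by
    unfold Lin
    rw [hx0, hx1, hx2]
    ring
  have hb : ∀ i, (vecOf X (D : ℝ)) i - Lin (vecOf X (D : ℝ)) ≤ -(a : ℝ) / 2 ^ 40 := by
    intro i
    rw [hL]
    have key : ∀ w z : ℝ, (a : ℝ) * D ≤ w * 2 ^ 40 → z + w = (X.1 : ℝ) + X.2.1 + X.2.2 →
        z / D - ((X.1 : ℝ) + X.2.1 + X.2.2) / D ≤ -(a : ℝ) / 2 ^ 40 := by
      intro w z h hs
      rw [← hs, div_sub_div_same, div_le_div_iff₀ hDR (by positivity)]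
      nlinarith
    fin_cases i
    · exact key _ _ hA1 (by ring)
    · exact key _ _ hA2 (by ring)
    · exact key _ _ hA3 (by ring)
  have hc : (a : ℝ) / 2 ^ 40 ≤ (1 - A / 3) * Lin (vecOf X (D : ℝ)) := by
    rw [hL, hA]
    have hS : ((sumT X : ℕ) : ℝ) = (X.1 : ℝ) + X.2.1 + X.2.2 := by
      unfold sumT
      push_cast
      ring
    push_cast at h1R
    rw [hS] at h1R
    rw [div_mul_div_comm, div_le_div_iff₀ (by positivity) (by positivity)]
    nlinarith
  unfold tailPhi
  have hm1 : max (vmax (vecOf X (D : ℝ)) - A / 3 * Lin (vecOf X (D : ℝ))) 0 ≤ (1 - A / 3) * Lin (vecOf X (D : ℝ)) - (a : ℝ) / 2 ^ 40 := by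
    refine max_le ?_ (by linarith)
    have : vmax (vecOf X (D : ℝ)) ≤ Lin (vecOf X (D : ℝ)) - (a : ℝ) / 2 ^ 40 := by
      refine vmax_le fun i => ?_
      have := hb i
      rw [neg_div] at this
      linarith
    nlinarith
  rw [neg_div]
  linarith

end Vale.Agent.Lib.P154P
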